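import Vale.Agent.Lib.P184.Criterion

namespace Vale.Agent.Lib.P184

open scoped BigOperators Topology

set_option linter.unusedSectionVars false

section Cat0

variable {G : Type*} [Group G] {X : Type*} [MetricSpace X] [MulAction G X] [IsIsometricSMul G X]

/-- Points are at distance `n ℓ` along the orbit of a point of minimal displacement. -/
theorem dist_orbit
    (hmid : ∀ x y : X, ∃ m, dist x m = dist x y / 2 ∧ dist y m = dist x y / 2)
    (hCN : ∀ p x y m : X, dist x m = dist x y / 2 → dist y m = dist x y / 2 →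
      dist p m ^ 2 ≤ dist p x ^ 2 / 2 + dist p y ^ 2 / 2 - dist x y ^ 2 / 4)
    {z : G} {ℓ : ℝ} (hmin : ∀ x : X, ℓ ≤ dist x (z • x)) {y : X} (hy : dist y (z • y) = ℓ)
    (n : ℕ) : dist y ((z ^ n) • y) = n * ℓ := by
  obtain ⟨m, hm1, hm2⟩ := hmid y (z • y)
  rw [hy] at hm1 hm2
  have hℓ : 0 ≤ ℓ := hy ▸ dist_nonneg
  have hmz : dist m (z • m) = ℓ := by
    apply le_antisymm
    · calc dist m (z • m) ≤ dist m (z • y) + dist (z • y) (z • m) := dist_triangle _ _ _
        _ = ℓ := by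
          rw [dist_smul, dist_comm m, hm1, hm2]
          ring
    · exact hmin m
  -- the simultaneous claim
  have key : ∀ k : ℕ, dist y ((z ^ k) • y) = k * ℓ ∧ dist y ((z ^ k) • m) = k * ℓ + ℓ / 2 := by
    intro k
    induction k with
    | zero => simp [hm1]
    | succ k ih =>
      obtain ⟨ha, hc⟩ := ih
      have hps : ∀ w : X, (z ^ (k + 1)) • w = (z ^ k) • (z • w) := by
        intro w
        rw [pow_succ, mul_smul]
      -- first step
      have h1 : dist ((z ^ k) • y) ((z ^ (k + 1)) • y) = ℓ := by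
        rw [hps, dist_smul, hy]
      have h2 : dist ((z ^ k) • y) ((z ^ k) • m) = dist ((z ^ k) • y) ((z ^ (k + 1)) • y) / 2 := by
        rw [h1, dist_smul, hm1]
      have h3 : dist ((z ^ (k + 1)) • y) ((z ^ k) • m)
          = dist ((z ^ k) • y) ((z ^ (k + 1)) • y) / 2 := by
        rw [h1, hps, dist_smul, hm2]
      have hcn1 := hCN y _ _ _ h2 h3
      rw [h1, hc, ha] at hcn1
      have hA0 : 0 ≤ dist y ((z ^ (k + 1)) • y) := dist_nonneg
      have hup : dist y ((z ^ (k + 1)) • y) ≤ k * ℓ + ℓ := by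
        calc dist y ((z ^ (k + 1)) • y) ≤ dist y ((z ^ k) • y)
              + dist ((z ^ k) • y) ((z ^ (k + 1)) • y) := dist_triangle _ _ _
          _ = k * ℓ + ℓ := by rw [ha, h1]
      have hlow : k * ℓ + ℓ ≤ dist y ((z ^ (k + 1)) • y) := by
        have h5 : (k * ℓ + ℓ) ^ 2 ≤ dist y ((z ^ (k + 1)) • y) ^ 2 := by nlinarith
        exact (sq_le_sq₀ (by positivity) hA0).mp h5
      have hA : dist y ((z ^ (k + 1)) • y) = ((k + 1 : ℕ) : ℝ) * ℓ := by
        push_cast
        linarith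
      -- second step
      have h1' : dist ((z ^ k) • m) ((z ^ (k + 1)) • m) = ℓ := by
        rw [hps, dist_smul, hmz]
      have h2' : dist ((z ^ k) • m) ((z ^ (k + 1)) • y)
          = dist ((z ^ k) • m) ((z ^ (k + 1)) • m) / 2 := by
        rw [h1', hps, dist_smul, dist_comm, hm2]
      have h3' : dist ((z ^ (k + 1)) • m) ((z ^ (k + 1)) • y)
          = dist ((z ^ k) • m) ((z ^ (k + 1)) • m) / 2 := by
        rw [h1', dist_smul, dist_comm, hm1]
      have hcn2 := hCN y _ _ _ h2' h3'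
      rw [h1', hc, hA] at hcn2
      have hC0 : 0 ≤ dist y ((z ^ (k + 1)) • m) := dist_nonneg
      have hup' : dist y ((z ^ (k + 1)) • m) ≤ ((k + 1 : ℕ) : ℝ) * ℓ + ℓ / 2 := by
        calc dist y ((z ^ (k + 1)) • m) ≤ dist y ((z ^ (k + 1)) • y)
              + dist ((z ^ (k + 1)) • y) ((z ^ (k + 1)) • m) := dist_triangle _ _ _
          _ = _ := by rw [hA, dist_smul, hm1]
      have hlow' : ((k + 1 : ℕ) : ℝ) * ℓ + ℓ / 2 ≤ dist y ((z ^ (k + 1)) • m) := by
        have h5 : (((k + 1 : ℕ) : ℝ) * ℓ + ℓ / 2) ^ 2 ≤ dist y ((z ^ (k + 1)) • m) ^ 2 := by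
          push_cast at hcn2 ⊢
          nlinarith
        exact (sq_le_sq₀ (by positivity) hC0).mp h5
      exact ⟨hA, le_antisymm hup' hlow'⟩
  exact (key n).1

/-- The Busemann function of the orbit of `y` under `z`, evaluated at `w`. -/
noncomputable def bus (z : G) (ℓ : ℝ) (y w : X) : ℝ :=
  ⨅ n : ℕ, (dist w ((z ^ n) • y) - n * ℓ)

section Bus

variable
    (hmid : ∀ x y : X, ∃ m, dist x m = dist x y / 2 ∧ dist y m = dist x y / 2)
    (hCN : ∀ p x y m : X, dist x m = dist x y / 2 → dist y m = dist x y / 2 →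
      dist p m ^ 2 ≤ dist p x ^ 2 / 2 + dist p y ^ 2 / 2 - dist x y ^ 2 / 4)
    {z : G} {ℓ : ℝ} (hmin : ∀ x : X, ℓ ≤ dist x (z • x))

include hmid hCN hmin

theorem bus_bdd {y : X} (hy : dist y (z • y) = ℓ) (w : X) :
    BddBelow (Set.range fun n : ℕ => dist w ((z ^ n) • y) - n * ℓ) := by
  refine ⟨- dist w y, ?_⟩
  rintro _ ⟨n, rfl⟩
  have h := dist_orbit hmid hCN hmin hy n
  have h1 : dist y ((z ^ n) • y) ≤ dist y w + dist w ((z ^ n) • y) := dist_triangle _ _ _
  rw [h, dist_comm y w] at h1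
  show - dist w y ≤ dist w ((z ^ n) • y) - n * ℓ
  linarith

theorem bus_le {y : X} (hy : dist y (z • y) = ℓ) (w : X) (n : ℕ) :
    bus z ℓ y w ≤ dist w ((z ^ n) • y) - n * ℓ :=
  ciInf_le (bus_bdd hmid hCN hmin hy w) n

theorem le_bus {y : X} (w : X) {a : ℝ} (h : ∀ n : ℕ, a ≤ dist w ((z ^ n) • y) - n * ℓ) :
    a ≤ bus z ℓ y w :=
  le_ciInf h

theorem neg_dist_le_bus {y : X} (hy : dist y (z • y) = ℓ) (w : X) : - dist w y ≤ bus z ℓ y w := by
  apply le_bus hmid hCN hmin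
  intro n
  have h := dist_orbit hmid hCN hmin hy n
  have h1 : dist y ((z ^ n) • y) ≤ dist y w + dist w ((z ^ n) • y) := dist_triangle _ _ _
  rw [h, dist_comm y w] at h1
  linarith

theorem bus_le_dist {y : X} (hy : dist y (z • y) = ℓ) (w : X) : bus z ℓ y w ≤ dist w y := by
  have := bus_le hmid hCN hmin hy w 0
  simpa using this

theorem bus_self {y : X} (hy : dist y (z • y) = ℓ) : bus z ℓ y y = 0 := by
  apply le_antisymm
  · simpa using bus_le hmid hCN hmin hy y 0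
  · apply le_bus hmid hCN hmin
    intro n
    rw [dist_orbit hmid hCN hmin hy n, sub_self]

/-- Subadditivity. -/
theorem bus_subadd {y w : X} (hy : dist y (z • y) = ℓ) (hw : dist w (z • w) = ℓ) (u : X) :
    bus z ℓ y u ≤ bus z ℓ w u + bus z ℓ y w := by
  have h1 : ∀ m n : ℕ, bus z ℓ y u ≤ (dist u ((z ^ m) • w) - m * ℓ)
      + (dist w ((z ^ n) • y) - n * ℓ) := by
    intro m n
    have h2 := bus_le hmid hCN hmin hy u (m + n)
    have h3 : dist u ((z ^ (m + n)) • y) ≤ dist u ((z ^ m) • w)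
        + dist ((z ^ m) • w) ((z ^ (m + n)) • y) := dist_triangle _ _ _
    have h4 : dist ((z ^ m) • w) ((z ^ (m + n)) • y) = dist w ((z ^ n) • y) := by
      rw [pow_add, mul_smul, dist_smul]
    rw [h4] at h3
    push_cast at h2
    nlinarith
  have h5 : ∀ m : ℕ, bus z ℓ y u - (dist u ((z ^ m) • w) - m * ℓ) ≤ bus z ℓ y w := by
    intro m
    apply le_bus hmid hCN hmin
    intro n
    have := h1 m n
    linarith
  have h6 : bus z ℓ y u - bus z ℓ y w ≤ bus z ℓ w u := by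
    apply le_bus hmid hCN hmin
    intro m
    have := h5 m
    linarith
  linarith

/-- The CAT(0) input: the antisymmetry of the Busemann functions along parallel orbits. -/
theorem bus_antisymm_le {y w : X} (hy : dist y (z • y) = ℓ) (hw : dist w (z • w) = ℓ)
    (hℓ : 0 < ℓ) : bus z ℓ y w + bus z ℓ w y ≤ 0 := by
  by_contra hpos
  rw [not_le] at hpos
  set s := bus z ℓ y w + bus z ℓ w y with hs
  set h := dist y w with hh
  obtain ⟨n, hn⟩ := exists_nat_gt (h ^ 2 / (ℓ * s))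
  have hpos' : 0 < ℓ * s := mul_pos hℓ hpos
  rw [div_lt_iff₀ hpos'] at hn
  -- the quadrilateral inequality
  set D₁ := dist w ((z ^ n) • y) with hD₁
  set D₂ := dist y ((z ^ n) • w) with hD₂
  have hdy := dist_orbit hmid hCN hmin hy n
  have hdw := dist_orbit hmid hCN hmin hw n
  obtain ⟨m, hm1, hm2⟩ := hmid y ((z ^ n) • w)
  have hc1 := hCN w y ((z ^ n) • w) m hm1 hm2
  have hc2 := hCN ((z ^ n) • y) y ((z ^ n) • w) m hm1 hm2
  rw [hdw, ← hD₂, dist_comm w y, ← hh] at hc1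
  rw [dist_comm ((z ^ n) • y) y, hdy, dist_smul, ← hD₂, ← hh] at hc2
  have htri : D₁ ≤ dist w m + dist ((z ^ n) • y) m := by
    rw [dist_comm ((z ^ n) • y) m]
    exact dist_triangle _ _ _
  have hD₁0 : 0 ≤ D₁ := dist_nonneg
  have hquad : D₁ ^ 2 + D₂ ^ 2 ≤ 2 * h ^ 2 + 2 * (n * ℓ) ^ 2 := by
    have h5 : D₁ ^ 2 ≤ 2 * dist w m ^ 2 + 2 * dist ((z ^ n) • y) m ^ 2 := by
      have h6 : D₁ ^ 2 ≤ (dist w m + dist ((z ^ n) • y) m) ^ 2 := by
        exact pow_le_pow_left₀ hD₁0 htri 2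
      nlinarith [sq_nonneg (dist w m - dist ((z ^ n) • y) m)]
    nlinarith
  -- the Busemann values are bounded by the terms
  have hb1 : bus z ℓ y w ≤ D₁ - n * ℓ := bus_le hmid hCN hmin hy w n
  have hb2 : bus z ℓ w y ≤ D₂ - n * ℓ := bus_le hmid hCN hmin hw y n
  have hsum : s ≤ D₁ + D₂ - 2 * (n * ℓ) := by linarith
  -- contradiction
  have hnn : (0 : ℝ) ≤ n * ℓ := mul_nonneg (Nat.cast_nonneg _) hℓ.le
  have h7 : 2 * (n * ℓ) * s ≤ 2 * (n * ℓ) * (D₁ + D₂ - 2 * (n * ℓ)) :=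
    mul_le_mul_of_nonneg_left hsum (by linarith)
  have h8 : 2 * (n * ℓ) * (D₁ + D₂ - 2 * (n * ℓ)) ≤ 2 * h ^ 2 := by
    nlinarith [sq_nonneg (D₁ - n * ℓ), sq_nonneg (D₂ - n * ℓ)]
  nlinarith

theorem bus_antisymm {y w : X} (hy : dist y (z • y) = ℓ) (hw : dist w (z • w) = ℓ)
    (hℓ : 0 < ℓ) : bus z ℓ y w + bus z ℓ w y = 0 := by
  apply le_antisymm (bus_antisymm_le hmid hCN hmin hy hw hℓ)
  have h := bus_subadd hmid hCN hmin hy hw y
  rw [bus_self hmid hCN hmin hy] at h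
  linarith

/-- Additivity along parallel orbits. -/
theorem bus_add {y w u : X} (hy : dist y (z • y) = ℓ) (hw : dist w (z • w) = ℓ)
    (hu : dist u (z • u) = ℓ) (hℓ : 0 < ℓ) : bus z ℓ y u = bus z ℓ y w + bus z ℓ w u := by
  apply le_antisymm
  · have := bus_subadd hmid hCN hmin hy hw u
    linarith
  · have h1 := bus_subadd hmid hCN hmin hu hw y
    have h2 := bus_antisymm hmid hCN hmin hy hu hℓ
    have h3 := bus_antisymm hmid hCN hmin hy hw hℓ
    have h4 := bus_antisymm hmid hCN hmin hw hu hℓ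
    linarith

end Bus

theorem bus_smul {z v : G} (hv : Commute v z) (ℓ : ℝ) (y w : X) :
    bus z ℓ (v • y) (v • w) = bus z ℓ y w := by
  unfold bus
  congr 1
  funext n
  have : (z ^ n) • v • y = v • (z ^ n) • y := by
    rw [smul_smul, smul_smul, ((hv.pow_right n).eq).symm]
  rw [this, dist_smul]

/-- An element of minimal positive displacement has vanishing class trace. -/
theorem cat0_hyperbolic_trace_zero
    (hmid : ∀ x y : X, ∃ m, dist x m = dist x y / 2 ∧ dist y m = dist x y / 2)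
    (hCN : ∀ p x y m : X, dist x m = dist x y / 2 → dist y m = dist x y / 2 →
      dist p m ^ 2 ≤ dist p x ^ 2 / 2 + dist p y ^ 2 / 2 - dist x y ^ 2 / 4)
    (z : G) (y₀ : X) (hmin : ∀ x : X, dist y₀ (z • y₀) ≤ dist x (z • x))
    (hpos : 0 < dist y₀ (z • y₀))
    {q : ℕ} (e : G → Matrix (Fin q) (Fin q) ℂ)
    (he_sum : ∀ i j, Summable fun g => ‖e g i j‖)
    (he_idem : ∀ g i j, ∑' h, ∑ k, e h i k * e (h⁻¹ * g) k j = e g i j) :
    ∑' x : {x : G // IsConj z x}, ∑ i, e x.1 i i = 0 := by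
  set ℓ := dist y₀ (z • y₀) with hℓdef
  have hy₀ : dist y₀ (z • y₀) = ℓ := rfl
  have hmem : ∀ v : G, Commute v z → dist (v • y₀) (z • v • y₀) = ℓ := by
    intro v hv
    have : z • v • y₀ = v • z • y₀ := by rw [smul_smul, smul_smul, hv.eq]
    rw [this, dist_smul]
  have hadd : ∀ v w : G, Commute v z → Commute w z →
      bus z ℓ y₀ ((v * w) • y₀) = bus z ℓ y₀ (v • y₀) + bus z ℓ y₀ (w • y₀) := by
    intro v w hv hw
    have h1 := bus_add hmid hCN hmin hy₀ (hmem v hv) (hmem (v * w) (hv.mul_left hw)) hpos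
    have h2 : bus z ℓ (v • y₀) ((v * w) • y₀) = bus z ℓ y₀ (w • y₀) := by
      rw [mul_smul, bus_smul hv]
    rw [h1, h2]
  refine criterion z (fun g => dist y₀ (g • y₀)) ?_ (fun v => bus z ℓ y₀ (v • y₀)) hadd ?_ ?_
    e he_sum he_idem
  · intro a b
    calc dist y₀ ((a * b) • y₀) ≤ dist y₀ (a • y₀) + dist (a • y₀) ((a * b) • y₀) :=
          dist_triangle _ _ _
      _ = _ := by rw [mul_smul, dist_smul]
  · intro v hv
    rw [abs_le]
    constructor
    · have := neg_dist_le_bus hmid hCN hmin hy₀ (v • y₀)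
      rwa [dist_comm] at this
    · have := bus_le_dist hmid hCN hmin hy₀ (v • y₀)
      rwa [dist_comm] at this
  · -- the value at `z`
    have h1 := bus_le hmid hCN hmin hy₀ (z • y₀) 1
    simp only [pow_one, dist_self, Nat.cast_one, one_mul, zero_sub] at h1
    exact ne_of_lt (lt_of_le_of_lt h1 (by linarith))

end Cat0

end Vale.Agent.Lib.P184
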