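import Vale.Agent.Lib.P184.Trace

namespace Vale.Agent.Lib.P184

open scoped BigOperators Topology

set_option linter.unusedSectionVars false

section Extension

variable {G : Type*} [Group G]

/-- The equivariant extension of a dominated additive function on the centraliser. -/
theorem exists_equivariant (z : G) (L : G → ℝ) (hL : ∀ a b, L (a * b) ≤ L a + L b)
    (χ : G → ℝ) (hχ : ∀ v w, Commute v z → Commute w z → χ (v * w) = χ v + χ w)
    (hχL : ∀ v, Commute v z → |χ v| ≤ L v) :
    ∃ f : G → ℝ, (∀ x, ∃ C, ∀ u, |f (x * u) - f u| ≤ C) ∧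
      (∀ u v, Commute v z → f (u * v) - f u = f v - f 1) ∧ f z - f 1 = χ z := by
  have hone : Commute (1 : G) z := Commute.one_left z
  have hχ1 : χ 1 = 0 := by
    have := hχ 1 1 hone hone
    rw [mul_one] at this
    linarith
  have hχinv : ∀ v, Commute v z → χ v⁻¹ = - χ v := by
    intro v hv
    have := hχ v⁻¹ v hv.inv_left hv
    rw [inv_mul_cancel, hχ1] at this
    linarith
  -- the terms of the supremum
  let Zt := {v : G // Commute v z}
  have : Nonempty Zt := ⟨⟨1, hone⟩⟩
  let term : G → Zt → ℝ := fun u v => χ v.1 - L (u * v.1⁻¹)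
  have hbdd : ∀ u, BddAbove (Set.range (term u)) := by
    intro u
    refine ⟨L u⁻¹, ?_⟩
    rintro _ ⟨v, rfl⟩
    have h1 : χ v.1 ≤ L v.1⁻¹ := by
      have h2 := hχL v.1⁻¹ v.2.inv_left
      rw [hχinv v.1 v.2, abs_neg] at h2
      exact (le_abs_self _).trans h2
    have h3 : L v.1⁻¹ ≤ L u⁻¹ + L (u * v.1⁻¹) := by
      have := hL u⁻¹ (u * v.1⁻¹)
      rwa [inv_mul_cancel_left] at this
    show χ v.1 - L (u * v.1⁻¹) ≤ L u⁻¹
    linarith
  let f : G → ℝ := fun u => ⨆ v, term u v
  have hle : ∀ u v, term u v ≤ f u := fun u v => le_ciSup (hbdd u) v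
  -- equivariance
  have hequiv : ∀ u v, Commute v z → f (u * v) = f u + χ v := by
    intro u v hv
    apply le_antisymm
    · refine ciSup_le fun w => ?_
      let w' : Zt := ⟨w.1 * v⁻¹, w.2.mul_left hv.inv_left⟩
      have h1 := hle u w'
      have h2 : χ (w.1 * v⁻¹) = χ w.1 - χ v := by
        rw [hχ w.1 v⁻¹ w.2 hv.inv_left, hχinv v hv]
        ring
      have h3 : u * (w.1 * v⁻¹)⁻¹ = u * v * w.1⁻¹ := by group
      have h4 : term u w' = χ w.1 - χ v - L (u * v * w.1⁻¹) := by
        show χ (w.1 * v⁻¹) - L (u * (w.1 * v⁻¹)⁻¹) = _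
        rw [h2, h3]
      show χ w.1 - L (u * v * w.1⁻¹) ≤ f u + χ v
      rw [h4] at h1
      linarith
    · have h5 : f u ≤ f (u * v) - χ v := by
        refine ciSup_le fun w => ?_
        let w' : Zt := ⟨w.1 * v, w.2.mul_left hv⟩
        have h1 := hle (u * v) w'
        have h2 : χ (w.1 * v) = χ w.1 + χ v := hχ w.1 v w.2 hv
        have h3 : u * v * (w.1 * v)⁻¹ = u * w.1⁻¹ := by group
        have h4 : term (u * v) w' = χ w.1 + χ v - L (u * w.1⁻¹) := by
          show χ (w.1 * v) - L (u * v * (w.1 * v)⁻¹) = _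
          rw [h2, h3]
        show χ w.1 - L (u * w.1⁻¹) ≤ f (u * v) - χ v
        rw [h4] at h1
        linarith
      linarith
  refine ⟨f, ?_, ?_, ?_⟩
  · -- bounded differences
    intro x
    refine ⟨max (L x) (L x⁻¹), fun u => ?_⟩
    have h1 : f (x * u) ≤ f u + L x⁻¹ := by
      refine ciSup_le fun w => ?_
      have h2 := hle u w
      have h3 : L (u * w.1⁻¹) ≤ L x⁻¹ + L (x * u * w.1⁻¹) := by
        have := hL x⁻¹ (x * u * w.1⁻¹)
        have h4 : x⁻¹ * (x * u * w.1⁻¹) = u * w.1⁻¹ := by group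
        rwa [h4] at this
      have h5 : term u w = χ w.1 - L (u * w.1⁻¹) := rfl
      show χ w.1 - L (x * u * w.1⁻¹) ≤ f u + L x⁻¹
      rw [h5] at h2
      linarith
    have h6 : f u ≤ f (x * u) + L x := by
      refine ciSup_le fun w => ?_
      have h2 := hle (x * u) w
      have h3 : L (x * u * w.1⁻¹) ≤ L x + L (u * w.1⁻¹) := by
        have := hL x (u * w.1⁻¹)
        rwa [← mul_assoc] at this
      have h5 : term (x * u) w = χ w.1 - L (x * u * w.1⁻¹) := rfl
      show χ w.1 - L (u * w.1⁻¹) ≤ f (x * u) + L x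
      rw [h5] at h2
      linarith
    rw [abs_le]
    constructor
    · linarith [le_max_left (L x) (L x⁻¹)]
    · linarith [le_max_right (L x) (L x⁻¹)]
  · intro u v hv
    have h1 := hequiv u v hv
    have h2 := hequiv 1 v hv
    rw [one_mul] at h2
    linarith
  · have h2 := hequiv 1 z (Commute.refl z)
    rw [one_mul] at h2
    linarith

end Extension

section Matrix

open Matrix

variable {G : Type*} [Group G]

/-- The theorem with the function `f`, for matrices over the `ℓ¹` group algebra. -/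
theorem matrix_main (z : G) (f : G → ℝ)
    (hbdd : ∀ x : G, ∃ C : ℝ, ∀ u : G, |f (x * u) - f u| ≤ C)
    (hequiv : ∀ u v, Commute v z → f (u * v) - f u = f v - f 1)
    (hz : f z ≠ f 1)
    {q : ℕ} (e : G → Matrix (Fin q) (Fin q) ℂ)
    (he_sum : ∀ i j, Summable fun g => ‖e g i j‖)
    (he_idem : ∀ g i j, ∑' h, ∑ k, e h i k * e (h⁻¹ * g) k j = e g i j) :
    ∑' x : {x : G // IsConj z x}, ∑ i, e x.1 i i = 0 := by
  classical
  let _ : NormedRing (Matrix (Fin q) (Fin q) ℂ) := Matrix.linftyOpNormedRing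
  let _ : NormedAlgebra ℂ (Matrix (Fin q) (Fin q) ℂ) := Matrix.linftyOpNormedAlgebra
  have : CompleteSpace (Matrix (Fin q) (Fin q) ℂ) := FiniteDimensional.complete ℂ _
  -- summability of the norm
  have hsum : Summable fun x => ‖e x‖ := by
    have h1 : Summable fun g => ∑ i, ∑ j, ‖e g i j‖ :=
      summable_sum fun i _ => summable_sum fun j _ => he_sum i j
    refine Summable.of_nonneg_of_le (fun _ => norm_nonneg _) (fun g => ?_) h1
    rw [Matrix.linfty_opNorm_def]
    have h2 : ((Finset.univ.sup fun i => ∑ j, ‖e g i j‖₊ : NNReal) : ℝ)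
        ≤ ∑ i, ∑ j, ‖e g i j‖ := by
      have h3 : (Finset.univ.sup fun i => ∑ j, ‖e g i j‖₊ : NNReal)
          ≤ ∑ i, ∑ j, ‖e g i j‖₊ := by
        refine Finset.sup_le fun i hi => ?_
        exact Finset.single_le_sum (f := fun i => ∑ j, ‖e g i j‖₊) (fun _ _ => zero_le) hi
      have h4 := NNReal.coe_le_coe.mpr h3
      simpa using h4
    exact h2
  -- the trace
  let tr : Matrix (Fin q) (Fin q) ℂ →L[ℂ] ℂ :=
    LinearMap.toContinuousLinearMap (Matrix.traceLinearMap (Fin q) ℂ ℂ)
  have htr_apply : ∀ m, tr m = ∑ i, m i i := fun m => rfl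
  have htr : ∀ a b, tr (a * b) = tr (b * a) := fun a b => Matrix.trace_mul_comm a b
  -- the idempotent identity in the norm topology
  have hidem : ∀ x, ∑' y, e (x * y⁻¹) * e y = e x := by
    intro x
    have hterm : Summable fun y => e (x * y⁻¹) * e y := by
      have := summable_term (F := fun x _ => e x) (F' := fun x _ => e x)
        (A := fun x => ‖e x‖) (B := fun x => ‖e x‖) ⟨hsum, fun _ _ => le_rfl⟩
        ⟨hsum, fun _ _ => le_rfl⟩ x 1
      exact this
    ext i j
    let ev : Matrix (Fin q) (Fin q) ℂ →L[ℂ] ℂ :=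
      LinearMap.toContinuousLinearMap (Matrix.entryLinearMap ℂ ℂ i j)
    have hev : ∀ m, ev m = m i j := fun m => rfl
    change ev (∑' y, e (x * y⁻¹) * e y) = e x i j
    rw [ev.map_tsum hterm]
    have h2 := he_idem x i j
    rw [← h2, ← (Equiv.inv G).trans (Equiv.mulLeft x) |>.tsum_eq
      (fun h => ∑ k, e h i k * e (h⁻¹ * x) k j)]
    refine tsum_congr fun y => ?_
    rw [hev, Matrix.mul_apply]
    simp
  have hequiv' : ∀ u v, v ∈ Subgroup.centralizer {z} → f (u * v) - f u = f v - f 1 := by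
    intro u v hv
    exact hequiv u v (Subgroup.mem_centralizer_singleton_iff.mp hv)
  have hmain := main_tsum_eq_zero (z := z) (e := e) (f := f) hsum hidem hbdd hequiv' hz tr htr
  have h := tsum_subtype {x : G | IsConj z x} (fun x => ∑ i, e x i i)
  have h' : ∑' x : {x : G // IsConj z x}, ∑ i, e x.1 i i
      = ∑' x, {x : G | IsConj z x}.indicator (fun x => ∑ i, e x i i) x := h
  rw [h']
  exact hmain

/-- The criterion: a homomorphism on the centraliser that is dominated by a length function. -/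
theorem criterion (z : G) (L : G → ℝ) (hL : ∀ a b, L (a * b) ≤ L a + L b)
    (χ : G → ℝ) (hχ : ∀ v w, Commute v z → Commute w z → χ (v * w) = χ v + χ w)
    (hχL : ∀ v, Commute v z → |χ v| ≤ L v) (hχz : χ z ≠ 0)
    {q : ℕ} (e : G → Matrix (Fin q) (Fin q) ℂ)
    (he_sum : ∀ i j, Summable fun g => ‖e g i j‖)
    (he_idem : ∀ g i j, ∑' h, ∑ k, e h i k * e (h⁻¹ * g) k j = e g i j) :
    ∑' x : {x : G // IsConj z x}, ∑ i, e x.1 i i = 0 := by
  obtain ⟨f, h1, h2, h3⟩ := exists_equivariant z L hL χ hχ hχL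
  refine matrix_main z f h1 h2 ?_ e he_sum he_idem
  intro h
  apply hχz
  rw [← h3, h, sub_self]

end Matrix

end Vale.Agent.Lib.P184
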