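import Vale.Agent.Lib.P184.Cat0

namespace Vale.Agent.Lib.P184

open scoped BigOperators Topology

set_option linter.unusedSectionVars false

section Geometric

variable {G : Type*} [Group G] {X : Type*} [MetricSpace X] [MulAction G X] [IsIsometricSMul G X]

/-- An element of finite order fixes a point: the barycentre of an orbit. -/
theorem exists_fixed_point [ProperSpace X] [Nonempty X]
    (hmid : ∀ x y : X, ∃ m, dist x m = dist x y / 2 ∧ dist y m = dist x y / 2)
    (hCN : ∀ p x y m : X, dist x m = dist x y / 2 → dist y m = dist x y / 2 →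
      dist p m ^ 2 ≤ dist p x ^ 2 / 2 + dist p y ^ 2 / 2 - dist x y ^ 2 / 4)
    {z : G} (hz : IsOfFinOrder z) : ∃ x : X, z • x = x := by
  obtain ⟨n, hn0, hn⟩ := isOfFinOrder_iff_pow_eq_one.mp hz
  obtain ⟨p₀⟩ := ‹Nonempty X›
  let Φ : X → ℝ := fun x => ∑ k ∈ Finset.range n, dist x ((z ^ k) • p₀) ^ 2
  have hΦc : Continuous Φ :=
    continuous_finsetSum _ fun k _ => (continuous_id.dist continuous_const).pow 2
  have hΦ0 : ∀ x, 0 ≤ Φ x := fun x => Finset.sum_nonneg fun k _ => sq_nonneg _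
  set R := Φ p₀ + 1 with hR
  have hR0 : 0 ≤ R := by linarith [hΦ0 p₀]
  have hK : IsCompact (Metric.closedBall p₀ R) := isCompact_closedBall _ _
  obtain ⟨x₀, -, hmin⟩ := hK.exists_isMinOn ⟨p₀, Metric.mem_closedBall_self hR0⟩ hΦc.continuousOn
  have hle : ∀ x ∈ Metric.closedBall p₀ R, Φ x₀ ≤ Φ x := fun x hx => hmin hx
  have hglobal : ∀ x, Φ x₀ ≤ Φ x := by
    intro x
    by_cases hx : x ∈ Metric.closedBall p₀ R
    · exact hle x hx
    · have h1 : R < dist x p₀ := by simpa using hx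
      have h2 : dist x p₀ ^ 2 ≤ Φ x := by
        have := Finset.single_le_sum (f := fun k => dist x ((z ^ k) • p₀) ^ 2)
          (s := Finset.range n) (fun _ _ => sq_nonneg _) (Finset.mem_range.mpr hn0)
        simpa using this
      have h3 : Φ x₀ ≤ Φ p₀ := hle p₀ (Metric.mem_closedBall_self hR0)
      have h4 := hΦ0 p₀
      nlinarith
  have huniq : ∀ x, Φ x ≤ Φ x₀ → x = x₀ := by
    intro x hx
    obtain ⟨m, hm1, hm2⟩ := hmid x x₀
    have h1 : Φ m ≤ Φ x / 2 + Φ x₀ / 2 - n * dist x x₀ ^ 2 / 4 := by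
      have h2 : ∀ k ∈ Finset.range n, dist m ((z ^ k) • p₀) ^ 2
          ≤ dist x ((z ^ k) • p₀) ^ 2 / 2 + dist x₀ ((z ^ k) • p₀) ^ 2 / 2 - dist x x₀ ^ 2 / 4 := by
        intro k _
        have := hCN ((z ^ k) • p₀) x x₀ m hm1 hm2
        rw [dist_comm ((z ^ k) • p₀) m, dist_comm ((z ^ k) • p₀) x,
          dist_comm ((z ^ k) • p₀) x₀] at this
        exact this
      have h3 := Finset.sum_le_sum h2
      have h4 : ∑ k ∈ Finset.range n, (dist x ((z ^ k) • p₀) ^ 2 / 2
          + dist x₀ ((z ^ k) • p₀) ^ 2 / 2 - dist x x₀ ^ 2 / 4)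
          = Φ x / 2 + Φ x₀ / 2 - n * dist x x₀ ^ 2 / 4 := by
        rw [Finset.sum_sub_distrib, Finset.sum_add_distrib, ← Finset.sum_div, ← Finset.sum_div]
        simp [Φ]
        ring
      rw [h4] at h3
      exact h3
    have h5 := hglobal m
    have h6 : (0 : ℝ) < n := by exact_mod_cast hn0
    have h7 : dist x x₀ ^ 2 ≤ 0 := by
      have : (n : ℝ) * dist x x₀ ^ 2 ≤ 0 := by linarith
      by_contra hcon
      rw [not_le] at hcon
      nlinarith [mul_pos h6 hcon]
    have h8 : dist x x₀ = 0 := by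
      have h9 := sq_nonneg (dist x x₀)
      have h10 : dist x x₀ ^ 2 = 0 := le_antisymm h7 h9
      exact pow_eq_zero_iff (two_ne_zero) |>.mp h10
    exact dist_eq_zero.mp h8
  have hinv : Φ (z • x₀) = Φ x₀ := by
    obtain ⟨m, rfl⟩ := Nat.exists_eq_succ_of_ne_zero hn0.ne'
    show ∑ k ∈ Finset.range (m + 1), dist (z • x₀) ((z ^ k) • p₀) ^ 2
      = ∑ k ∈ Finset.range (m + 1), dist x₀ ((z ^ k) • p₀) ^ 2
    rw [Finset.sum_range_succ', Finset.sum_range_succ]
    congr 1
    · refine Finset.sum_congr rfl fun k _ => ?_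
      rw [pow_succ' z k, mul_smul, dist_smul]
    · have hp : p₀ = z • ((z ^ m) • p₀) := by
        rw [← mul_smul, ← pow_succ', Nat.succ_eq_add_one] at *
        rw [hn, one_smul]
      rw [pow_zero, one_smul]
      conv_lhs => rw [hp]
      rw [dist_smul]
  exact ⟨x₀, huniq _ (le_of_eq hinv)⟩

/-- The displacement of any element attains its minimum under a proper cocompact action. -/
theorem exists_min_disp [ProperSpace X] [Nonempty X]
    (hproper : ∀ K : Set X, IsCompact K → {g : G | ((fun x => g • x) '' K ∩ K).Nonempty}.Finite)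
    (hco : ∃ K : Set X, IsCompact K ∧ ∀ x : X, ∃ g : G, g • x ∈ K) (z : G) :
    ∃ y : X, ∀ x : X, dist y (z • y) ≤ dist x (z • x) := by
  classical
  obtain ⟨K, hK, hgK⟩ := hco
  obtain ⟨p₀⟩ := ‹Nonempty X›
  set R₀ := dist p₀ (z • p₀) with hR₀
  have hK' : IsCompact (Metric.cthickening R₀ K) := hK.cthickening
  let S : Finset G := (hproper _ hK').toFinset.filter (fun g => IsConj z g)
  -- conjugates moving a point of `K` by at most `R₀` lie in `S`
  have hkey : ∀ x : X, dist x (z • x) ≤ R₀ → ∀ g : G, g • x ∈ K → g * z * g⁻¹ ∈ S := by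
    intro x hx g hg
    simp only [S, Finset.mem_filter, Set.Finite.mem_toFinset, Set.mem_ofPred_eq]
    refine ⟨⟨g • z • x, ⟨g • x, Metric.self_subset_cthickening K hg, ?_⟩, ?_⟩,
      isConj_iff.mpr ⟨g, rfl⟩⟩
    · show (g * z * g⁻¹) • g • x = g • z • x
      simp [mul_smul]
    · refine Metric.mem_cthickening_of_dist_le _ _ _ _ hg ?_
      rw [dist_smul, dist_comm]
      exact hx
  have hKne : K.Nonempty := by
    obtain ⟨g, hg⟩ := hgK p₀
    exact ⟨_, hg⟩
  have hY : ∀ s : G, ∃ y ∈ K, ∀ x ∈ K, dist y (s • y) ≤ dist x (s • x) := by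
    intro s
    have hc : Continuous fun x : X => dist x (s • x) :=
      continuous_id.dist (continuous_const_smul s)
    obtain ⟨y, hy, hmin⟩ := hK.exists_isMinOn hKne hc.continuousOn
    exact ⟨y, hy, fun x hx => hmin hx⟩
  choose Y hYK hYmin using hY
  have hSne : S.Nonempty := by
    obtain ⟨g, hg⟩ := hgK p₀
    exact ⟨_, hkey p₀ le_rfl g hg⟩
  obtain ⟨s, hsS, hs⟩ := Finset.exists_min_image S (fun s => dist (Y s) (s • Y s)) hSne
  have hsconj : IsConj z s := by
    simp only [S, Finset.mem_filter] at hsS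
    exact hsS.2
  obtain ⟨h, rfl⟩ := isConj_iff.mp hsconj
  refine ⟨h⁻¹ • Y (h * z * h⁻¹), ?_⟩
  have hval : dist (h⁻¹ • Y (h * z * h⁻¹)) (z • h⁻¹ • Y (h * z * h⁻¹))
      = dist (Y (h * z * h⁻¹)) ((h * z * h⁻¹) • Y (h * z * h⁻¹)) := by
    rw [← dist_smul h (h⁻¹ • _) _]
    simp [mul_smul]
  rw [hval]
  have hlow : ∀ x : X, dist x (z • x) ≤ R₀ →
      dist (Y (h * z * h⁻¹)) ((h * z * h⁻¹) • Y (h * z * h⁻¹)) ≤ dist x (z • x) := by
    intro x hx
    obtain ⟨g, hg⟩ := hgK x
    have h1 := hs _ (hkey x hx g hg)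
    have h2 := hYmin (g * z * g⁻¹) (g • x) hg
    have h3 : dist (g • x) ((g * z * g⁻¹) • g • x) = dist x (z • x) := by
      rw [← dist_smul g x (z • x)]
      simp [mul_smul]
    exact h1.trans (h2.trans h3.le)
  intro x
  by_cases hx : dist x (z • x) ≤ R₀
  · exact hlow x hx
  · exact (hlow p₀ le_rfl).trans (le_of_lt (not_le.mp hx))

/-- A fixed point under a proper action forces finite order. -/
theorem finOrder_of_fixed
    (hproper : ∀ K : Set X, IsCompact K → {g : G | ((fun x => g • x) '' K ∩ K).Nonempty}.Finite)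
    {z : G} {y : X} (hy : z • y = y) : IsOfFinOrder z := by
  have hfin := hproper {y} isCompact_singleton
  have hsub : ((Submonoid.powers z : Submonoid G) : Set G)
      ⊆ {g : G | ((fun x => g • x) '' {y} ∩ {y}).Nonempty} := by
    rintro g ⟨n, rfl⟩
    refine ⟨y, ⟨y, rfl, ?_⟩, rfl⟩
    have : ∀ n : ℕ, (z ^ n) • y = y := by
      intro n
      induction n with
      | zero => simp
      | succ n ih => rw [pow_succ, mul_smul, hy, ih]
    exact this n
  exact finite_powers.mp (hfin.subset hsub)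

/-- Question Q1 for groups acting properly and cocompactly on a CAT(0) space. -/
theorem q1_geometric [ProperSpace X] [Nonempty X]
    (hmid : ∀ x y : X, ∃ m, dist x m = dist x y / 2 ∧ dist y m = dist x y / 2)
    (hCN : ∀ p x y m : X, dist x m = dist x y / 2 → dist y m = dist x y / 2 →
      dist p m ^ 2 ≤ dist p x ^ 2 / 2 + dist p y ^ 2 / 2 - dist x y ^ 2 / 4)
    (hproper : ∀ K : Set X, IsCompact K → {g : G | ((fun x => g • x) '' K ∩ K).Nonempty}.Finite)
    (hco : ∃ K : Set X, IsCompact K ∧ ∀ x : X, ∃ g : G, g • x ∈ K)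
    {q : ℕ} (e : G → Matrix (Fin q) (Fin q) ℂ)
    (he_sum : ∀ i j, Summable fun g => ‖e g i j‖)
    (he_idem : ∀ g i j, ∑' h, ∑ k, e h i k * e (h⁻¹ * g) k j = e g i j) :
    ∃ F : Finset (ConjClasses G), (∀ C ∈ F, ∃ g, ConjClasses.mk g = C ∧ IsOfFinOrder g) ∧
      ∀ C, C ∉ F → ∑' x : {x : G // ConjClasses.mk x = C}, ∑ i, e x.1 i i = 0 := by
  classical
  obtain ⟨K, hK, hgK⟩ := id hco
  let F : Finset (ConjClasses G) :=
    ((hproper K hK).toFinset.filter IsOfFinOrder).image ConjClasses.mk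
  refine ⟨F, ?_, ?_⟩
  · intro C hC
    obtain ⟨g, hg, rfl⟩ := Finset.mem_image.mp hC
    exact ⟨g, rfl, (Finset.mem_filter.mp hg).2⟩
  · intro C hC
    obtain ⟨z, rfl⟩ := ConjClasses.exists_rep C
    by_cases hz : IsOfFinOrder z
    · exfalso
      obtain ⟨p, hp⟩ := exists_fixed_point hmid hCN (G := G) (X := X) hz
      obtain ⟨g, hg⟩ := hgK p
      apply hC
      refine Finset.mem_image.mpr ⟨g * z * g⁻¹, ?_, ?_⟩
      · rw [Finset.mem_filter, Set.Finite.mem_toFinset]
        refine ⟨⟨g • p, ⟨g • p, hg, ?_⟩, hg⟩, ?_⟩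
        · show (g * z * g⁻¹) • g • p = g • p
          simp [mul_smul, hp]
        · obtain ⟨n, hn0, hn⟩ := isOfFinOrder_iff_pow_eq_one.mp hz
          refine isOfFinOrder_iff_pow_eq_one.mpr ⟨n, hn0, ?_⟩
          rw [conj_pow, hn]
          group
      · exact ConjClasses.mk_eq_mk_iff_isConj.mpr (isConj_comm.mp (isConj_iff.mpr ⟨g, rfl⟩))
    · obtain ⟨y, hy⟩ := exists_min_disp hproper hco (X := X) z
      have hpos : 0 < dist y (z • y) := by
        refine lt_of_le_of_ne dist_nonneg ?_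
        intro h0
        apply hz
        have h1 : y = z • y := dist_eq_zero.mp h0.symm
        exact finOrder_of_fixed hproper h1.symm
      have h := cat0_hyperbolic_trace_zero hmid hCN z y hy hpos e he_sum he_idem
      have hset : {x : G | ConjClasses.mk x = ConjClasses.mk z} = {x | IsConj z x} := by
        ext x
        simp only [Set.mem_ofPred_eq, ConjClasses.mk_eq_mk_iff_isConj]
        exact isConj_comm
      have h2 := tsum_congr_set_coe (fun x => ∑ i, e x i i) hset
      exact h2.trans h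

end Geometric

end Vale.Agent.Lib.P184
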