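import Mathlib

namespace Vale.Agent.Lib.P184

open scoped BigOperators Topology

set_option linter.unusedSectionVars false

section Index

variable {R : Type*} [Ring R] {A : Type*} [AddCommGroup A]

/-- For idempotents `a`, `b` and a trace `T`, the value `T (d ^ (2 n + 1))`, `d = a - b`, does not
depend on `n`. -/
theorem index_identity (T : R →+ A) (hT : ∀ a b : R, T (a * b) = T (b * a))
    {a b : R} (ha : a * a = a) (hb : b * b = b) (n : ℕ) :
    T (((a - b) * (a - b)) ^ n * (a - b)) = T (a - b) := by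
  have hs' : (a - b) * (a - b) = a + b - a * b - b * a := by
    calc (a - b) * (a - b) = a * a + b * b - a * b - b * a := by noncomm_ring
      _ = _ := by rw [ha, hb]
  have hsa : Commute ((a - b) * (a - b)) a := by
    have h1 : (a + b - a * b - b * a) * a = a - a * b * a := by
      calc (a + b - a * b - b * a) * a = a * a + b * a - a * b * a - b * (a * a) := by noncomm_ring
        _ = _ := by rw [ha]; abel
    have h2 : a * (a + b - a * b - b * a) = a - a * b * a := by
      calc a * (a + b - a * b - b * a) = a * a + a * b - (a * a) * b - a * b * a := by noncomm_ring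
        _ = _ := by rw [ha]; abel
    show _ * _ = _ * _
    rw [hs', h1, h2]
  have hsb : Commute ((a - b) * (a - b)) b := by
    have h1 : (a + b - a * b - b * a) * b = b - b * a * b := by
      calc (a + b - a * b - b * a) * b = a * b + b * b - a * (b * b) - b * a * b := by noncomm_ring
        _ = _ := by rw [hb]; abel
    have h2 : b * (a + b - a * b - b * a) = b - b * a * b := by
      calc b * (a + b - a * b - b * a) = b * a + b * b - b * a * b - (b * b) * a := by noncomm_ring
        _ = _ := by rw [hb]; abel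
    show _ * _ = _ * _
    rw [hs', h1, h2]
  have hsd : ((a - b) * (a - b)) * (a - b) = (a - b) - a * b * a + b * a * b := by
    rw [hs']
    calc (a + b - a * b - b * a) * (a - b)
        = a * a - b * b - a * b * a + b * a * b - a * b + a * (b * b) + b * a - b * (a * a) := by
          noncomm_ring
      _ = _ := by rw [ha, hb]; abel
  induction n with
  | zero => simp
  | succ n ih =>
    set t := ((a - b) * (a - b)) ^ n with ht
    have hta : Commute t a := hsa.pow_left n
    have htb : Commute t b := hsb.pow_left n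
    have e1 : T (t * (a * b * a)) = T (t * (a * b)) := by
      calc T (t * (a * b * a)) = T ((t * a * b) * a) := by noncomm_ring
        _ = T (a * (t * a * b)) := hT _ _
        _ = T ((a * t) * a * b) := by noncomm_ring
        _ = T ((t * a) * a * b) := by rw [hta.eq.symm]
        _ = T (t * (a * a) * b) := by noncomm_ring
        _ = T (t * (a * b)) := by rw [ha]; noncomm_ring
    have e2 : T (t * (b * a * b)) = T (t * (a * b)) := by
      calc T (t * (b * a * b)) = T ((t * b * a) * b) := by noncomm_ring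
        _ = T (b * (t * b * a)) := hT _ _
        _ = T ((b * t) * b * a) := by noncomm_ring
        _ = T ((t * b) * b * a) := by rw [htb.eq.symm]
        _ = T (t * (b * b) * a) := by noncomm_ring
        _ = T ((t * b) * a) := by rw [hb]
        _ = T (a * (t * b)) := hT _ _
        _ = T ((a * t) * b) := by noncomm_ring
        _ = T ((t * a) * b) := by rw [hta.eq.symm]
        _ = T (t * (a * b)) := by noncomm_ring
    have : ((a - b) * (a - b)) ^ (n + 1) * (a - b)
        = t * (a - b) - t * (a * b * a) + t * (b * a * b) := by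
      rw [pow_succ, mul_assoc, hsd, ← ht]
      noncomm_ring
    rw [this, map_add, map_sub, e1, e2, sub_add_cancel]
    exact ih

end Index

section Kernel

variable {G : Type*} [Group G] {M : Type*} [NormedRing M]

/-- `A` is a summable envelope of the kernel `F`. -/
def Env (F : G → G → M) (A : G → ℝ) : Prop := Summable A ∧ ∀ x u, ‖F x u‖ ≤ A x

theorem Env.nonneg {F : G → G → M} {A : G → ℝ} (h : Env F A) : 0 ≤ A :=
  fun x => (norm_nonneg _).trans (h.2 x 1)

/-- The reindexing `(x, y) ↦ (x y⁻¹, y)`. -/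
def shear : G × G ≃ G × G where
  toFun p := (p.1 * p.2⁻¹, p.2)
  invFun p := (p.1 * p.2, p.2)
  left_inv p := by simp
  right_inv p := by simp

/-- The reindexing `(a, b) ↦ (b a, a)`. -/
def shear' : G × G ≃ G × G where
  toFun p := (p.2 * p.1, p.1)
  invFun p := (p.2, p.1 * p.2⁻¹)
  left_inv p := by simp
  right_inv p := by simp

theorem summable_pair {A B : G → ℝ} (hA : Summable A) (hB : Summable B) (hA0 : 0 ≤ A)
    (hB0 : 0 ≤ B) : Summable (fun p : G × G => A (p.1 * p.2⁻¹) * B p.2) :=
  (shear.summable_iff (f := fun p : G × G => A p.1 * B p.2)).2 (hA.mul_of_nonneg hB hA0 hB0)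

/-- Convolution of envelopes. -/
noncomputable def convE (A B : G → ℝ) (x : G) : ℝ := ∑' y, A (x * y⁻¹) * B y

theorem summable_slice {A B : G → ℝ} (hA : Summable A) (hB : Summable B) (hA0 : 0 ≤ A)
    (hB0 : 0 ≤ B) (x : G) : Summable (fun y => A (x * y⁻¹) * B y) :=
  (summable_pair hA hB hA0 hB0).prod_factor x

theorem summable_convE {A B : G → ℝ} (hA : Summable A) (hB : Summable B) (hA0 : 0 ≤ A)
    (hB0 : 0 ≤ B) : Summable (convE A B) :=
  (summable_pair hA hB hA0 hB0).prod

theorem tsum_convE {A B : G → ℝ} (hA : Summable A) (hB : Summable B) (hA0 : 0 ≤ A)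
    (hB0 : 0 ≤ B) : ∑' x, convE A B x = (∑' x, A x) * ∑' y, B y := by
  rw [hA.tsum_mul_tsum hB (hA.mul_of_nonneg hB hA0 hB0)]
  calc ∑' x, convE A B x = ∑' p : G × G, A (p.1 * p.2⁻¹) * B p.2 :=
        ((summable_pair hA hB hA0 hB0).tsum_prod).symm
    _ = _ := shear.tsum_eq (fun p : G × G => A p.1 * B p.2)

theorem convE_nonneg {A B : G → ℝ} (hA0 : 0 ≤ A) (hB0 : 0 ≤ B) : 0 ≤ convE A B :=
  fun _ => tsum_nonneg fun _ => mul_nonneg (hA0 _) (hB0 _)

/-- The product of kernels. -/
noncomputable def mulK (F F' : G → G → M) (x u : G) : M := ∑' y, F (x * y⁻¹) (y * u) * F' y u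

variable [CompleteSpace M]

theorem term_bound {F F' : G → G → M} {A B : G → ℝ} (hF : Env F A) (hF' : Env F' B) (x u y : G) :
    ‖F (x * y⁻¹) (y * u) * F' y u‖ ≤ A (x * y⁻¹) * B y :=
  (norm_mul_le _ _).trans (mul_le_mul (hF.2 _ _) (hF'.2 _ _) (norm_nonneg _) (hF.nonneg _))

theorem summable_term {F F' : G → G → M} {A B : G → ℝ} (hF : Env F A) (hF' : Env F' B)
    (x u : G) : Summable (fun y => F (x * y⁻¹) (y * u) * F' y u) :=
  Summable.of_norm_bounded (summable_slice hF.1 hF'.1 hF.nonneg hF'.nonneg x) (term_bound hF hF' x u)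

theorem Env.mulK {F F' : G → G → M} {A B : G → ℝ} (hF : Env F A) (hF' : Env F' B) :
    Env (mulK F F') (convE A B) := by
  refine ⟨summable_convE hF.1 hF'.1 hF.nonneg hF'.nonneg, fun x u => ?_⟩
  exact tsum_of_norm_bounded (summable_slice hF.1 hF'.1 hF.nonneg hF'.nonneg x).hasSum
    (term_bound hF hF' x u)

theorem Env.add {F F' : G → G → M} {A B : G → ℝ} (hF : Env F A) (hF' : Env F' B) :
    Env (F + F') (A + B) :=
  ⟨hF.1.add hF'.1, fun x u => (norm_add_le _ _).trans (add_le_add (hF.2 x u) (hF'.2 x u))⟩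

theorem Env.neg {F : G → G → M} {A : G → ℝ} (hF : Env F A) : Env (-F) A :=
  ⟨hF.1, fun x u => by simpa using hF.2 x u⟩

theorem Env.zero : Env (0 : G → G → M) (0 : G → ℝ) :=
  ⟨summable_zero, fun x u => by simp⟩

/-- The unit kernel. -/
noncomputable def oneK : G → G → M := fun x _ => open Classical in if x = 1 then 1 else 0

theorem Env.oneK : Env (oneK : G → G → M)
    (fun x => open Classical in if x = 1 then ‖(1 : M)‖ else 0) := by
  classical
  refine ⟨(hasSum_ite_eq (1 : G) ‖(1 : M)‖).summable, fun x u => ?_⟩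
  by_cases h : x = 1 <;> simp [Vale.Agent.Lib.P184.oneK, h]

theorem mulK_assoc {F F' F'' : G → G → M} {A B C : G → ℝ} (hF : Env F A) (hF' : Env F' B)
    (hF'' : Env F'' C) : mulK (mulK F F') F'' = mulK F (mulK F' F'') := by
  funext x u
  -- the left side
  have hL : mulK (mulK F F') F'' x u
      = ∑' y, ∑' w, F (x * y⁻¹ * w⁻¹) (w * (y * u)) * F' w (y * u) * F'' y u := by
    unfold Vale.Agent.Lib.P184.mulK
    refine tsum_congr fun y => ?_
    rw [Summable.tsum_mul_right _ (summable_term hF hF' _ _)]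
  have hR : mulK F (mulK F' F'') x u
      = ∑' s, ∑' y, F (x * s⁻¹) (s * u) * (F' (s * y⁻¹) (y * u) * F'' y u) := by
    unfold Vale.Agent.Lib.P184.mulK
    refine tsum_congr fun s => ?_
    rw [Summable.tsum_mul_left _ (summable_term hF' hF'' _ _)]
  rw [hL, hR]
  -- swap the sums on the right
  have hS : Summable (Function.uncurry
      (fun s y : G => F (x * s⁻¹) (s * u) * (F' (s * y⁻¹) (y * u) * F'' y u))) := by
    have hbd : ∀ s, A (x * s⁻¹) ≤ ∑' a, A a := fun s => hF.1.le_tsum _ (fun j _ => hF.nonneg j)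
    refine Summable.of_norm_bounded (g := fun p : G × G => (∑' a, A a) * (B (p.1 * p.2⁻¹) * C p.2))
      ((summable_pair hF'.1 hF''.1 hF'.nonneg hF''.nonneg).mul_left _) ?_
    rintro ⟨s, y⟩
    simp only [Function.uncurry]
    refine (norm_mul_le _ _).trans (mul_le_mul ((hF.2 _ _).trans (hbd s)) ?_ (norm_nonneg _)
      (tsum_nonneg hF.nonneg))
    exact term_bound hF' hF'' s u y
  rw [← hS.tsum_comm]
  refine tsum_congr fun y => ?_
  rw [← (Equiv.mulRight y).tsum_eq
    (fun s => F (x * s⁻¹) (s * u) * (F' (s * y⁻¹) (y * u) * F'' y u))]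
  refine tsum_congr fun w => ?_
  simp only [Equiv.coe_mulRight, mul_inv_rev, mul_assoc, mul_inv_cancel, mul_one]

theorem mulK_add {F F' F'' : G → G → M} {A B C : G → ℝ} (hF : Env F A) (hF' : Env F' B)
    (hF'' : Env F'' C) : mulK F (F' + F'') = mulK F F' + mulK F F'' := by
  funext x u
  simp only [Pi.add_apply, Vale.Agent.Lib.P184.mulK, mul_add]
  exact (summable_term hF hF' x u).tsum_add (summable_term hF hF'' x u)

theorem add_mulK {F F' F'' : G → G → M} {A B C : G → ℝ} (hF : Env F A) (hF' : Env F' B)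
    (hF'' : Env F'' C) : mulK (F + F') F'' = mulK F F'' + mulK F' F'' := by
  funext x u
  simp only [Pi.add_apply, Vale.Agent.Lib.P184.mulK, add_mul]
  exact (summable_term hF hF'' x u).tsum_add (summable_term hF' hF'' x u)

theorem oneK_mulK (F : G → G → M) : mulK oneK F = F := by
  classical
  funext x u
  unfold Vale.Agent.Lib.P184.mulK Vale.Agent.Lib.P184.oneK
  rw [tsum_eq_single x]
  · simp
  · intro y hy
    have : x * y⁻¹ ≠ 1 := fun h => hy (by
      have := mul_inv_eq_one.mp h
      exact this.symm)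
    simp [this]

theorem mulK_oneK (F : G → G → M) : mulK F oneK = F := by
  classical
  funext x u
  unfold Vale.Agent.Lib.P184.mulK Vale.Agent.Lib.P184.oneK
  rw [tsum_eq_single 1]
  · simp
  · intro y hy
    simp [hy]

/-- The additive group of kernels that have a summable envelope and are right invariant under
`Z`. -/
def KSet (Z : Subgroup G) (M : Type*) [NormedRing M] [CompleteSpace M] :
    AddSubgroup (G → G → M) where
  carrier := {F | (∃ A, Env F A) ∧ ∀ x u v, v ∈ Z → F x (u * v) = F x u}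
  add_mem' := by
    rintro F F' ⟨⟨A, hA⟩, h⟩ ⟨⟨B, hB⟩, h'⟩
    exact ⟨⟨_, hA.add hB⟩, fun x u v hv => by simp [h x u v hv, h' x u v hv]⟩
  zero_mem' := ⟨⟨_, Env.zero⟩, fun _ _ _ _ => rfl⟩
  neg_mem' := by
    rintro F ⟨⟨A, hA⟩, h⟩
    exact ⟨⟨_, hA.neg⟩, fun x u v hv => by simp [h x u v hv]⟩

variable {Z : Subgroup G}

theorem mulK_mem {F F' : G → G → M} (hF : F ∈ KSet Z M) (hF' : F' ∈ KSet Z M) :
    mulK F F' ∈ KSet Z M := by
  obtain ⟨⟨A, hA⟩, h⟩ := hF
  obtain ⟨⟨B, hB⟩, h'⟩ := hF'
  refine ⟨⟨_, hA.mulK hB⟩, fun x u v hv => ?_⟩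
  unfold Vale.Agent.Lib.P184.mulK
  refine tsum_congr fun y => ?_
  rw [← mul_assoc y u v, h _ _ _ hv, h' _ _ _ hv]

theorem oneK_mem : (oneK : G → G → M) ∈ KSet Z M :=
  ⟨⟨_, Env.oneK⟩, fun _ _ _ _ => rfl⟩

noncomputable instance : Ring (KSet Z M) :=
  { (inferInstance : AddCommGroup (KSet Z M)) with
    mul := fun F F' => ⟨mulK F.1 F'.1, mulK_mem F.2 F'.2⟩
    one := ⟨oneK, oneK_mem⟩
    left_distrib := fun F F' F'' => by
      obtain ⟨⟨A, hA⟩, _⟩ := F.2
      obtain ⟨⟨B, hB⟩, _⟩ := F'.2
      obtain ⟨⟨C, hC⟩, _⟩ := F''.2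
      exact Subtype.ext (mulK_add hA hB hC)
    right_distrib := fun F F' F'' => by
      obtain ⟨⟨A, hA⟩, _⟩ := F.2
      obtain ⟨⟨B, hB⟩, _⟩ := F'.2
      obtain ⟨⟨C, hC⟩, _⟩ := F''.2
      exact Subtype.ext (add_mulK hA hB hC)
    zero_mul := fun F => by
      apply Subtype.ext
      funext x u
      show mulK (0 : G → G → M) F.1 x u = 0
      simp [Vale.Agent.Lib.P184.mulK]
    mul_zero := fun F => by
      apply Subtype.ext
      funext x u
      show mulK F.1 (0 : G → G → M) x u = 0
      simp [Vale.Agent.Lib.P184.mulK]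
    mul_assoc := fun F F' F'' => by
      obtain ⟨⟨A, hA⟩, _⟩ := F.2
      obtain ⟨⟨B, hB⟩, _⟩ := F'.2
      obtain ⟨⟨C, hC⟩, _⟩ := F''.2
      exact Subtype.ext (mulK_assoc hA hB hC)
    one_mul := fun F => Subtype.ext (oneK_mulK F.1)
    mul_one := fun F => Subtype.ext (mulK_oneK F.1) }

theorem coe_mul (F F' : KSet Z M) : ((F * F' : KSet Z M) : G → G → M) = mulK F.1 F'.1 := rfl

/-- `F` is bounded by `ε` in the weighted norm. -/
def SmallBy (F : G → G → M) (ε : ℝ) : Prop := ∃ A, Env F A ∧ ∑' x, A x ≤ ε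

theorem SmallBy.mul {F F' : G → G → M} {ε ε' : ℝ} (h : SmallBy F ε) (h' : SmallBy F' ε') :
    SmallBy (mulK F F') (ε * ε') := by
  obtain ⟨A, hA, hAε⟩ := h
  obtain ⟨B, hB, hBε⟩ := h'
  refine ⟨_, hA.mulK hB, ?_⟩
  rw [tsum_convE hA.1 hB.1 hA.nonneg hB.nonneg]
  exact mul_le_mul hAε hBε (tsum_nonneg hB.nonneg) ((tsum_nonneg hA.nonneg).trans hAε)

theorem SmallBy.nonneg {F : G → G → M} {ε : ℝ} (h : SmallBy F ε) : 0 ≤ ε := by
  obtain ⟨A, hA, hAε⟩ := h
  exact (tsum_nonneg hA.nonneg).trans hAε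

theorem SmallBy.of_unit_mul {F F' : KSet Z M} {ε ε' : ℝ} (h : SmallBy F.1 ε)
    (h' : SmallBy F'.1 ε') : SmallBy (F * F').1 (ε * ε') := h.mul h'

/-- Powers. `d * d` to the `n`, times `d`, is small by `ε ^ (2 n + 1)`. -/
theorem SmallBy.odd_pow {d : KSet Z M} {ε : ℝ} (h : SmallBy d.1 ε) (n : ℕ) :
    SmallBy (((d * d) ^ n * d : KSet Z M) : G → G → M) (ε ^ (2 * n + 1)) := by
  induction n with
  | zero => simpa using h
  | succ n ih =>
    have : (d * d) ^ (n + 1) * d = (d * (d * ((d * d) ^ n * d))) := by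
      rw [pow_succ', mul_assoc, mul_assoc]
    rw [this]
    have h1 := SmallBy.of_unit_mul (F := d) (F' := d * ((d * d) ^ n * d)) h
      (SmallBy.of_unit_mul (F := d) (F' := (d * d) ^ n * d) h ih)
    convert h1 using 1
    ring

end Kernel

end Vale.Agent.Lib.P184
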