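import Vale.Agent.Lib.P184.Criterion

namespace Vale.Agent.Lib.P184

open scoped BigOperators Topology
open Module

set_option linter.unusedSectionVars false

section Det

variable {𝕜 : Type*} [NormedField 𝕜] [IsAlgClosed 𝕜]

theorem multiset_prod_norm_le (s : Multiset 𝕜) {R : ℝ} (hR : 0 ≤ R) (h : ∀ x ∈ s, ‖x‖ ≤ R) :
    ‖s.prod‖ ≤ R ^ (Multiset.card s) := by
  induction s using Multiset.induction_on with
  | empty => simp
  | cons a s ih =>
    rw [Multiset.prod_cons, norm_mul, Multiset.card_cons, pow_succ']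
    exact mul_le_mul (h a (Multiset.mem_cons_self a s))
      (ih fun x hx => h x (Multiset.mem_cons_of_mem hx)) (norm_nonneg _) hR

theorem multiset_prod_norm_eq (s : Multiset 𝕜) {R : ℝ} (h : ∀ x ∈ s, ‖x‖ = R) :
    ‖s.prod‖ = R ^ (Multiset.card s) := by
  induction s using Multiset.induction_on with
  | empty => simp
  | cons a s ih =>
    rw [Multiset.prod_cons, norm_mul, Multiset.card_cons, pow_succ', h a (Multiset.mem_cons_self a s),
      ih fun x hx => h x (Multiset.mem_cons_of_mem hx)]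

variable {W : Type*} [AddCommGroup W] [Module 𝕜 W] [FiniteDimensional 𝕜 W]

theorem det_eq_prod_roots (f : End 𝕜 W) : LinearMap.det f = f.charpoly.roots.prod := by
  classical
  let b := Module.finBasis 𝕜 W
  rw [← LinearMap.det_toMatrix b f, Matrix.det_eq_prod_roots_charpoly,
    LinearMap.charpoly_toMatrix]

theorem card_roots_charpoly (f : End 𝕜 W) :
    Multiset.card f.charpoly.roots = finrank 𝕜 W := by
  rw [← LinearMap.charpoly_natDegree f]
  exact Polynomial.splits_iff_card_roots.mp (IsAlgClosed.splits _)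

theorem norm_det_le (f : End 𝕜 W) {R : ℝ} (hR : 0 ≤ R)
    (h : ∀ μ, End.HasEigenvalue f μ → ‖μ‖ ≤ R) : ‖LinearMap.det f‖ ≤ R ^ finrank 𝕜 W := by
  rw [det_eq_prod_roots, ← card_roots_charpoly f]
  refine multiset_prod_norm_le _ hR fun x hx => h x ?_
  rw [End.hasEigenvalue_iff_isRoot_charpoly]
  exact (Polynomial.mem_roots'.mp hx).2

theorem norm_det_eq (f : End 𝕜 W) {R : ℝ}
    (h : ∀ μ, End.HasEigenvalue f μ → ‖μ‖ = R) : ‖LinearMap.det f‖ = R ^ finrank 𝕜 W := by
  rw [det_eq_prod_roots, ← card_roots_charpoly f]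
  refine multiset_prod_norm_eq _ fun x hx => h x ?_
  rw [End.hasEigenvalue_iff_isRoot_charpoly]
  exact (Polynomial.mem_roots'.mp hx).2

end Det

section Linear

attribute [local instance] Matrix.linftyOpNormedRing

variable {𝕜 : Type*} [NormedField 𝕜] [IsAlgClosed 𝕜] {G : Type*} [Group G] {n : ℕ}

/-- An element with an eigenvalue off the unit circle has a dominated character on its
centraliser. -/
theorem exists_character_of_eigenvalue (ρ : G →* Matrix (Fin n) (Fin n) 𝕜) (z : G) (μ : 𝕜)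
    (v₀ : Fin n → 𝕜) (hv₀ : v₀ ≠ 0) (hμ : (ρ z).mulVec v₀ = μ • v₀) (hnorm : ‖μ‖ ≠ 1) :
    ∃ (L : G → ℝ) (χ : G → ℝ), (∀ a b, L (a * b) ≤ L a + L b) ∧
      (∀ v w, Commute v z → Commute w z → χ (v * w) = χ v + χ w) ∧
      (∀ v, Commute v z → |χ v| ≤ L v) ∧ χ z ≠ 0 := by
  classical
  let T : G → End 𝕜 (Fin n → 𝕜) := fun g => Matrix.toLin' (ρ g)
  have hTmul : ∀ g h, T (g * h) = T g * T h := by
    intro g h
    simp only [T, map_mul]
    exact Matrix.toLin'_mul _ _
  have hTone : T 1 = 1 := by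
    simp only [T, map_one]
    exact Matrix.toLin'_one
  have hTapply : ∀ g x, T g x = (ρ g).mulVec x := fun g x => by simp [T]
  have hTinv : ∀ g x, T g⁻¹ (T g x) = x := by
    intro g x
    have h := hTmul g⁻¹ g
    rw [inv_mul_cancel, hTone] at h
    have h2 := congrArg (fun f : End 𝕜 (Fin n → 𝕜) => f x) h
    simpa using h2.symm
  set r := ‖μ‖ with hr
  have hμ0 : μ ≠ 0 := by
    rintro rfl
    apply hv₀
    have h1 := hTinv z v₀
    rw [hTapply z v₀, hμ, zero_smul, map_zero] at h1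
    exact h1.symm
  have hr0 : 0 < r := norm_pos_iff.mpr hμ0
  let W : Submodule 𝕜 (Fin n → 𝕜) := ⨆ (l : 𝕜) (_ : ‖l‖ = r), End.maxGenEigenspace (T z) l
  have hcomm : ∀ v, Commute v z → Commute (T z) (T v) := by
    intro v hv
    show T z * T v = T v * T z
    rw [← hTmul, ← hTmul, hv.eq]
  have hinvW : ∀ v, Commute v z → ∀ x ∈ W, T v x ∈ W := by
    intro v hv
    have h1 : W ≤ W.comap (T v) := by
      refine iSup₂_le fun l hl x hx => ?_
      have h2 : T v x ∈ End.maxGenEigenspace (T z) l :=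
        End.mapsTo_maxGenEigenspace_of_comm (hcomm v hv) l hx
      exact (le_iSup₂_of_le (f := fun (l : 𝕜) (_ : ‖l‖ = r) => End.maxGenEigenspace (T z) l)
        l hl le_rfl) h2
    exact fun x hx => h1 hx
  -- restrictions
  let A : ∀ v, Commute v z → End 𝕜 W := fun v hv => (T v).restrict (hinvW v hv)
  have hAmul : ∀ v w (hv : Commute v z) (hw : Commute w z),
      A (v * w) (hv.mul_left hw) = A v hv * A w hw := by
    intro v w hv hw
    ext x
    simp [A, hTmul]
  have hAone : A 1 (Commute.one_left z) = 1 := by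
    ext x
    simp [A, hTone]
  have hdetmul : ∀ v w (hv : Commute v z) (hw : Commute w z),
      LinearMap.det (A (v * w) (hv.mul_left hw)) = LinearMap.det (A v hv) * LinearMap.det (A w hw) := by
    intro v w hv hw
    rw [hAmul v w hv hw, map_mul]
  have hdetne : ∀ v (hv : Commute v z), LinearMap.det (A v hv) ≠ 0 := by
    intro v hv h0
    have h1 := hdetmul v v⁻¹ hv hv.inv_left
    have h2 : A (v * v⁻¹) (hv.mul_left hv.inv_left) = 1 := by
      have e : ∀ (g : G) (hg : Commute g z), g = 1 → A g hg = 1 := by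
        rintro g hg rfl
        exact hAone
      exact e _ (hv.mul_left hv.inv_left) (mul_inv_cancel v)
    rw [h2, h0, map_one, zero_mul] at h1
    exact one_ne_zero h1
  -- the eigenvalue bound
  have heig : ∀ v (hv : Commute v z) (l : 𝕜), End.HasEigenvalue (A v hv) l → ‖l‖ ≤ ‖ρ v‖ := by
    intro v hv l hl
    obtain ⟨x, hx⟩ := hl.exists_hasEigenvector
    have hx0 : (x : Fin n → 𝕜) ≠ 0 := fun h => hx.2 (Subtype.ext h)
    have h1 : T v x = l • (x : Fin n → 𝕜) := by
      have := congrArg Subtype.val hx.apply_eq_smul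
      simpa [A] using this
    rw [hTapply] at h1
    have h2 := Matrix.linfty_opNorm_mulVec (ρ v) (x : Fin n → 𝕜)
    rw [h1, norm_smul] at h2
    exact le_of_mul_le_mul_right h2 (norm_pos_iff.mpr hx0)
  have heigz : ∀ (l : 𝕜), End.HasEigenvalue (A z (Commute.refl z)) l → ‖l‖ = r := by
    intro l hl
    obtain ⟨x, hx⟩ := hl.exists_hasEigenvector
    have hx0 : (x : Fin n → 𝕜) ≠ 0 := fun h => hx.2 (Subtype.ext h)
    have h1 : T z x = l • (x : Fin n → 𝕜) := by
      have := congrArg Subtype.val hx.apply_eq_smul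
      simpa [A] using this
    by_contra hne
    have hmem1 : (x : Fin n → 𝕜) ∈ End.maxGenEigenspace (T z) l := by
      apply End.eigenspace_le_maxGenEigenspace
      rw [End.mem_eigenspace_iff]
      exact h1
    have hle : W ≤ ⨆ (j : 𝕜) (_ : j ≠ l), End.maxGenEigenspace (T z) j := by
      refine iSup₂_le fun j hj => ?_
      have hjl : j ≠ l := by
        rintro rfl
        exact hne hj
      exact le_iSup₂_of_le (f := fun (j : 𝕜) (_ : j ≠ l) => End.maxGenEigenspace (T z) j) j hjl le_rfl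
    have hind := End.independent_maxGenEigenspace (T z) l
    have h2 : (x : Fin n → 𝕜) ∈ (⨆ (j : 𝕜) (_ : j ≠ l), End.maxGenEigenspace (T z) j) :=
      hle x.2
    have h3 := (Submodule.disjoint_def.mp hind) _ hmem1 h2
    exact hx0 h3
  -- nontriviality of `W`
  have hWne : 0 < finrank 𝕜 W := by
    refine Module.finrank_pos_iff_exists_ne_zero.mpr ⟨⟨v₀, ?_⟩, ?_⟩
    · have h1 : v₀ ∈ End.maxGenEigenspace (T z) μ := by
        apply End.eigenspace_le_maxGenEigenspace
        rw [End.mem_eigenspace_iff, hTapply]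
        exact hμ
      exact (le_iSup₂_of_le (f := fun (l : 𝕜) (_ : ‖l‖ = r) => End.maxGenEigenspace (T z) l)
        μ rfl le_rfl) h1
    · intro h
      exact hv₀ (congrArg Subtype.val h)
  set d := finrank 𝕜 W with hd
  let χ : G → ℝ := fun g => if h : Commute g z then Real.log ‖LinearMap.det (A g h)‖ else 0
  have hχval : ∀ v (hv : Commute v z), χ v = Real.log ‖LinearMap.det (A v hv)‖ := by
    intro v hv
    simp only [χ, dif_pos hv]
  let lp : ℝ → ℝ := fun t => Real.log (max 1 t)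
  have hlp0 : ∀ t, 0 ≤ lp t := fun t => Real.log_nonneg (le_max_left _ _)
  have hlpmul : ∀ s t : ℝ, 0 ≤ s → 0 ≤ t → ∀ u : ℝ, u ≤ s * t → lp u ≤ lp s + lp t := by
    intro s t hs ht u hu
    have h1 : max 1 u ≤ max 1 s * max 1 t := by
      refine max_le ?_ ?_
      · exact one_le_mul_of_one_le_of_one_le (le_max_left _ _) (le_max_left _ _)
      · exact hu.trans (mul_le_mul (le_max_right _ _) (le_max_right _ _) ht
          (le_trans zero_le_one (le_max_left _ _)))
    have h2 : 0 < max 1 u := lt_of_lt_of_le one_pos (le_max_left _ _)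
    have h3 : 0 < max 1 s := lt_of_lt_of_le one_pos (le_max_left _ _)
    have h4 : 0 < max 1 t := lt_of_lt_of_le one_pos (le_max_left _ _)
    show Real.log _ ≤ Real.log _ + Real.log _
    rw [← Real.log_mul h3.ne' h4.ne']
    exact Real.log_le_log h2 h1
  let L : G → ℝ := fun g => d * (lp ‖ρ g‖ + lp ‖ρ g⁻¹‖)
  have hupper : ∀ v (hv : Commute v z), χ v ≤ d * lp ‖ρ v‖ := by
    intro v hv
    rw [hχval v hv]
    have h1 : ‖LinearMap.det (A v hv)‖ ≤ ‖ρ v‖ ^ d :=
      norm_det_le _ (norm_nonneg _) (heig v hv)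
    have h2 : 0 < ‖LinearMap.det (A v hv)‖ := norm_pos_iff.mpr (hdetne v hv)
    have h3 : ‖ρ v‖ ^ d ≤ (max 1 ‖ρ v‖) ^ d :=
      pow_le_pow_left₀ (norm_nonneg _) (le_max_right _ _) _
    have h4 : Real.log ‖LinearMap.det (A v hv)‖ ≤ Real.log ((max 1 ‖ρ v‖) ^ d) :=
      Real.log_le_log h2 (h1.trans h3)
    rwa [Real.log_pow] at h4
  refine ⟨L, χ, ?_, ?_, ?_, ?_⟩
  · intro a b
    have h1 : lp ‖ρ (a * b)‖ ≤ lp ‖ρ a‖ + lp ‖ρ b‖ := by
      refine hlpmul _ _ (norm_nonneg _) (norm_nonneg _) _ ?_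
      rw [map_mul]
      exact norm_mul_le _ _
    have h2 : lp ‖ρ (a * b)⁻¹‖ ≤ lp ‖ρ a⁻¹‖ + lp ‖ρ b⁻¹‖ := by
      rw [add_comm]
      refine hlpmul _ _ (norm_nonneg _) (norm_nonneg _) _ ?_
      rw [mul_inv_rev, map_mul]
      exact norm_mul_le _ _
    have hd0 : (0 : ℝ) ≤ d := Nat.cast_nonneg _
    show (d : ℝ) * (lp ‖ρ (a * b)‖ + lp ‖ρ (a * b)⁻¹‖)
      ≤ d * (lp ‖ρ a‖ + lp ‖ρ a⁻¹‖) + d * (lp ‖ρ b‖ + lp ‖ρ b⁻¹‖)
    rw [← mul_add]
    refine mul_le_mul_of_nonneg_left ?_ hd0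
    linarith
  · intro v w hv hw
    rw [hχval v hv, hχval w hw, hχval (v * w) (hv.mul_left hw), hdetmul v w hv hw, norm_mul,
      Real.log_mul (norm_pos_iff.mpr (hdetne v hv)).ne' (norm_pos_iff.mpr (hdetne w hw)).ne']
  · intro v hv
    have hd0 : (0 : ℝ) ≤ d := Nat.cast_nonneg _
    have h1 := hupper v hv
    have h2 := hupper v⁻¹ hv.inv_left
    have h3 : χ v⁻¹ = - χ v := by
      have h4 := hdetmul v v⁻¹ hv hv.inv_left
      have h5 : A (v * v⁻¹) (hv.mul_left hv.inv_left) = 1 := by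
        have e : ∀ (g : G) (hg : Commute g z), g = 1 → A g hg = 1 := by
          rintro g hg rfl
          exact hAone
        exact e _ (hv.mul_left hv.inv_left) (mul_inv_cancel v)
      rw [h5, map_one] at h4
      have h6 := congrArg norm h4
      rw [norm_one, norm_mul] at h6
      rw [hχval v hv, hχval v⁻¹ hv.inv_left]
      have h7 : Real.log ‖LinearMap.det (A v hv)‖ + Real.log ‖LinearMap.det (A v⁻¹ hv.inv_left)‖ = 0 := by
        rw [← Real.log_mul (norm_pos_iff.mpr (hdetne v hv)).ne'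
          (norm_pos_iff.mpr (hdetne v⁻¹ hv.inv_left)).ne', ← h6, Real.log_one]
      linarith
    rw [abs_le]
    have h8 := mul_nonneg hd0 (hlp0 ‖ρ v‖)
    have h9 := mul_nonneg hd0 (hlp0 ‖ρ v⁻¹‖)
    have h10 : L v = d * lp ‖ρ v‖ + d * lp ‖ρ v⁻¹‖ := by
      show (d : ℝ) * (lp ‖ρ v‖ + lp ‖ρ v⁻¹‖) = _
      ring
    rw [h10]
    constructor
    · rw [h3] at h2
      linarith
    · linarith
  · rw [hχval z (Commute.refl z), norm_det_eq _ heigz, Real.log_pow]
    have h1 : Real.log r ≠ 0 := by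
      intro h
      rcases Real.log_eq_zero.mp h with h2 | h2 | h2
      · exact hr0.ne' h2
      · exact hnorm h2
      · linarith
    have h2 : (d : ℝ) ≠ 0 := by
      have : d ≠ 0 := hWne.ne'
      exact_mod_cast this
    exact mul_ne_zero h2 h1

theorem linear_trace_zero (ρ : G →* Matrix (Fin n) (Fin n) 𝕜) (z : G) (μ : 𝕜)
    (v₀ : Fin n → 𝕜) (hv₀ : v₀ ≠ 0) (hμ : (ρ z).mulVec v₀ = μ • v₀) (hnorm : ‖μ‖ ≠ 1)
    {q : ℕ} (e : G → Matrix (Fin q) (Fin q) ℂ)
    (he_sum : ∀ i j, Summable fun g => ‖e g i j‖)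
    (he_idem : ∀ g i j, ∑' h, ∑ k, e h i k * e (h⁻¹ * g) k j = e g i j) :
    ∑' x : {x : G // IsConj z x}, ∑ i, e x.1 i i = 0 := by
  obtain ⟨L, χ, h1, h2, h3, h4⟩ := exists_character_of_eigenvalue ρ z μ v₀ hv₀ hμ hnorm
  exact criterion z L h1 χ h2 h3 h4 e he_sum he_idem

end Linear

end Vale.Agent.Lib.P184
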