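import Vale.Agent.Lib.P184.Criterion

namespace Vale.Agent.Lib.P184

open scoped BigOperators Topology

set_option linter.unusedSectionVars false

section Roundness

/-- A bounded real sequence has a limit along an ultrafilter. -/
theorem exists_ultra_lim (ω : Ultrafilter ℕ) (g : ℕ → ℝ) (B : ℝ) (h : ∀ n, |g n| ≤ B) :
    ∃ x, Filter.Tendsto g (ω : Filter ℕ) (𝓝 x) := by
  have hc : IsCompact (Set.Icc (-B) B) := isCompact_Icc
  have hle : ((ω.map g : Ultrafilter ℝ) : Filter ℝ) ≤ Filter.principal (Set.Icc (-B) B) := by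
    rw [Filter.le_principal_iff]
    rw [Ultrafilter.mem_coe, Ultrafilter.mem_map]
    exact Filter.Eventually.of_forall fun n => abs_le.mp (h n)
  obtain ⟨x, -, hx⟩ := hc.ultrafilter_le_nhds (ω.map g) hle
  exact ⟨x, hx⟩

variable {G : Type*} [Group G] {X : Type*} [PseudoMetricSpace X] [MulAction G X]
  [IsIsometricSMul G X]

/-- The existence of the equivariant function from the quadrilateral inequality. -/
theorem exists_f_of_round
    (hround : ∀ a b c d : X,
      dist a c ^ 2 + dist b d ^ 2 ≤ dist a b ^ 2 + dist b c ^ 2 + dist c d ^ 2 + dist d a ^ 2)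
    (z : G) (y : X) (c : ℝ) (hc : 0 < c) (hlin : ∀ n : ℕ, c * n ≤ dist y ((z ^ n) • y)) :
    ∃ f : G → ℝ, (∀ x, ∃ C, ∀ u, |f (x * u) - f u| ≤ C) ∧
      (∀ u v, Commute v z → f (u * v) - f u = f v - f 1) ∧ f z ≠ f 1 := by
  -- the orbit distances
  set a : ℕ → ℝ := fun n => dist y ((z ^ n) • y) with ha
  have ha1 : ∀ n : ℕ, a n ≤ n * a 1 := by
    intro n
    induction n with
    | zero => simp [ha]
    | succ n ih =>
      have h1 : a (n + 1) ≤ a n + a 1 := by
        calc a (n + 1) ≤ dist y ((z ^ n) • y) + dist ((z ^ n) • y) ((z ^ (n + 1)) • y) :=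
              dist_triangle _ _ _
          _ = a n + a 1 := by
              rw [pow_succ, mul_smul, dist_smul]
              simp [ha]
      push_cast
      linarith
  have hdiff : ∀ n : ℕ, dist (z • y) ((z ^ (n + 1)) • y) = a n := by
    intro n
    rw [pow_succ', mul_smul, dist_smul]
  -- infinitely many large increments
  have hfreq : ∃ᶠ n in Filter.atTop, c / 2 ≤ a (n + 1) - a n := by
    rw [Filter.frequently_atTop]
    intro N
    by_contra hcon
    simp only [not_exists, not_and, not_le] at hcon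
    have hgrow : ∀ k : ℕ, a (N + k) ≤ a N + k * (c / 2) := by
      intro k
      induction k with
      | zero => simp
      | succ k ih =>
        have := hcon (N + k) (Nat.le_add_right _ _)
        have e : N + (k + 1) = N + k + 1 := rfl
        rw [e]
        push_cast
        linarith
    obtain ⟨k, hk⟩ := exists_nat_gt (a N / (c / 2))
    have h2 := hgrow k
    have h3 := hlin (N + k)
    have hc2 : 0 < c / 2 := by linarith
    rw [div_lt_iff₀ hc2] at hk
    push_cast at h3
    have hN : (0 : ℝ) ≤ N := Nat.cast_nonneg _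
    have : (0 : ℝ) ≤ c * N := mul_nonneg hc.le hN
    nlinarith
  -- the ultrafilter
  have hne : Filter.NeBot (Filter.atTop ⊓ Filter.principal {n : ℕ | c / 2 ≤ a (n + 1) - a n}) :=
    Filter.frequently_mem_iff_neBot.mp hfreq
  let ω : Ultrafilter ℕ := Ultrafilter.of (Filter.atTop ⊓ Filter.principal {n | c / 2 ≤ a (n + 1) - a n})
  have hω : (ω : Filter ℕ) ≤ Filter.atTop ⊓ Filter.principal {n | c / 2 ≤ a (n + 1) - a n} :=
    Ultrafilter.of_le _
  have hωtop : (ω : Filter ℕ) ≤ Filter.atTop := hω.trans inf_le_left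
  have hωS : {n | c / 2 ≤ a (n + 1) - a n} ∈ (ω : Filter ℕ) :=
    Filter.le_principal_iff.mp (hω.trans inf_le_right)
  -- the sequences
  let p : ℕ → X := fun n => (z ^ (n + 1)) • y
  let g : X → ℕ → ℝ := fun w n => (dist w (p n) ^ 2 - dist y (p n) ^ 2) / (2 * (n + 1))
  have hn1 : ∀ n : ℕ, (0 : ℝ) < 2 * ((n : ℝ) + 1) := fun n => by positivity
  have hpdist : ∀ n, dist y (p n) ≤ (n + 1) * a 1 := by
    intro n
    have := ha1 (n + 1)
    push_cast at this
    exact this
  have ha10 : 0 ≤ a 1 := dist_nonneg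
  -- the general difference estimate
  have hdiffsq : ∀ (w w' : X) (n : ℕ), |g w n - g w' n|
      ≤ dist w w' * (a 1 + (dist w y + dist w' y) / (2 * (n + 1))) := by
    intro w w' n
    have h1 : g w n - g w' n = (dist w (p n) ^ 2 - dist w' (p n) ^ 2) / (2 * (n + 1)) := by
      simp only [g]
      field_simp
      ring
    rw [h1, abs_div, abs_of_pos (hn1 n), div_le_iff₀ (hn1 n)]
    have h2 : dist w (p n) ^ 2 - dist w' (p n) ^ 2
        = (dist w (p n) - dist w' (p n)) * (dist w (p n) + dist w' (p n)) := by ring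
    rw [h2, abs_mul]
    have h3 : |dist w (p n) - dist w' (p n)| ≤ dist w w' := abs_dist_sub_le _ _ _
    have h4 : 0 ≤ dist w (p n) + dist w' (p n) := add_nonneg dist_nonneg dist_nonneg
    rw [abs_of_nonneg h4]
    have h5 : dist w (p n) ≤ dist w y + (n + 1) * a 1 :=
      (dist_triangle _ y _).trans (by linarith [hpdist n])
    have h6 : dist w' (p n) ≤ dist w' y + (n + 1) * a 1 :=
      (dist_triangle _ y _).trans (by linarith [hpdist n])
    have h7 : dist w (p n) + dist w' (p n)
        ≤ (a 1 + (dist w y + dist w' y) / (2 * (n + 1))) * (2 * (n + 1)) := by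
      have h8 : (a 1 + (dist w y + dist w' y) / (2 * ((n : ℝ) + 1))) * (2 * (n + 1))
          = a 1 * (2 * (n + 1)) + (dist w y + dist w' y) := by
        field_simp
      rw [h8]
      nlinarith
    calc |dist w (p n) - dist w' (p n)| * (dist w (p n) + dist w' (p n))
        ≤ dist w w' * ((a 1 + (dist w y + dist w' y) / (2 * (n + 1))) * (2 * (n + 1))) :=
          mul_le_mul h3 h7 h4 dist_nonneg
      _ = _ := by ring
  have hgself : ∀ n, g y n = 0 := by
    intro n
    simp [g]
  -- boundedness and the limit function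
  have hgbound : ∀ w n, |g w n| ≤ dist w y * (a 1 + (dist w y + dist y y) / 1) := by
    intro w n
    have h1 := hdiffsq w y n
    rw [hgself n, sub_zero] at h1
    refine h1.trans ?_
    refine mul_le_mul_of_nonneg_left ?_ dist_nonneg
    have h2 : (1 : ℝ) ≤ 2 * ((n : ℝ) + 1) := by
      have : (0 : ℝ) ≤ n := Nat.cast_nonneg _
      linarith
    have h3 : 0 ≤ dist w y + dist y y := add_nonneg dist_nonneg dist_nonneg
    have h4 : (dist w y + dist y y) / (2 * ((n : ℝ) + 1)) ≤ (dist w y + dist y y) / 1 :=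
      div_le_div_of_nonneg_left h3 (by norm_num) h2
    rw [dist_self] at h4 ⊢
    linarith
  have hlim : ∀ w, ∃ x, Filter.Tendsto (g w) (ω : Filter ℕ) (𝓝 x) :=
    fun w => exists_ultra_lim ω (g w) _ (hgbound w)
  choose b hb using hlim
  have hby : b y = 0 := by
    have h1 : g y = fun _ => 0 := funext hgself
    have h2 := hb y
    rw [h1] at h2
    exact tendsto_nhds_unique h2 tendsto_const_nhds
  -- Lipschitz
  have hbLip : ∀ w w', |b w - b w'| ≤ dist w w' * a 1 := by
    intro w w'
    have h1 : Filter.Tendsto (fun n => |g w n - g w' n|) (ω : Filter ℕ) (𝓝 |b w - b w'|) :=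
      ((hb w).sub (hb w')).abs
    have h2 : Filter.Tendsto (fun n : ℕ => dist w w' * (a 1 + (dist w y + dist w' y) / (2 * (n + 1))))
        (ω : Filter ℕ) (𝓝 (dist w w' * (a 1 + 0))) := by
      refine Filter.Tendsto.const_mul _ (Filter.Tendsto.const_add _ ?_)
      refine Filter.Tendsto.mono_left ?_ hωtop
      refine Filter.Tendsto.div_atTop tendsto_const_nhds ?_
      refine Filter.Tendsto.const_mul_atTop (by norm_num) ?_
      exact Filter.tendsto_atTop_add_const_right _ _ tendsto_natCast_atTop_atTop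
    have h3 := le_of_tendsto_of_tendsto' h1 h2 (hdiffsq w w')
    simpa using h3
  -- equivariance
  have hbequiv : ∀ v w : X, ∀ v' : G, Commute v' z → v = v' • y →
      b (v' • w) - b w = b v := by
    intro v w v' hcomm hv
    have hp : ∀ n, dist (p n) (v'⁻¹ • p n) = dist y (v'⁻¹ • y) := by
      intro n
      have hcomm' : Commute v'⁻¹ (z ^ (n + 1)) := (hcomm.inv_left).pow_right _
      have e1 : v'⁻¹ • p n = (z ^ (n + 1)) • (v'⁻¹ • y) := by
        simp only [p, smul_smul]
        rw [hcomm'.eq]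
      rw [e1]
      exact dist_smul _ _ _
    have hE : ∀ n, |(dist (v' • w) (p n) ^ 2 - dist w (p n) ^ 2)
        - (dist v (p n) ^ 2 - dist y (p n) ^ 2)|
        ≤ dist w y ^ 2 + dist y (v'⁻¹ • y) ^ 2 := by
      intro n
      have e1 : dist (v' • w) (p n) = dist w (v'⁻¹ • p n) := by
        rw [← dist_smul v' w (v'⁻¹ • p n), smul_inv_smul]
      have e2 : dist v (p n) = dist y (v'⁻¹ • p n) := by
        rw [hv, ← dist_smul v' y (v'⁻¹ • p n), smul_inv_smul]
      rw [e1, e2]
      have r1 := hround w y (v'⁻¹ • p n) (p n)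
      have r2 := hround w y (p n) (v'⁻¹ • p n)
      rw [dist_comm (v'⁻¹ • p n) (p n)] at r1
      rw [hp n, dist_comm (p n) w] at r1
      rw [hp n, dist_comm (v'⁻¹ • p n) w] at r2
      rw [abs_le]
      constructor <;> nlinarith
    have h1 : Filter.Tendsto (fun n => (g (v' • w) n - g w n) - (g v n - g y n))
        (ω : Filter ℕ) (𝓝 ((b (v' • w) - b w) - (b v - b y))) :=
      ((hb (v' • w)).sub (hb w)).sub ((hb v).sub (hb y))
    have h2 : Filter.Tendsto (fun n => (g (v' • w) n - g w n) - (g v n - g y n))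
        (ω : Filter ℕ) (𝓝 0) := by
      refine Filter.Tendsto.mono_left ?_ hωtop
      have h3 : ∀ n : ℕ, |(g (v' • w) n - g w n) - (g v n - g y n)|
          ≤ (dist w y ^ 2 + dist y (v'⁻¹ • y) ^ 2) / (2 * (n + 1)) := by
        intro n
        have h4 : (g (v' • w) n - g w n) - (g v n - g y n)
            = ((dist (v' • w) (p n) ^ 2 - dist w (p n) ^ 2)
              - (dist v (p n) ^ 2 - dist y (p n) ^ 2)) / (2 * (n + 1)) := by
          simp only [g]
          field_simp
          ring
        rw [h4, abs_div, abs_of_pos (hn1 n)]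
        exact div_le_div_of_nonneg_right (hE n) (hn1 n).le
      refine squeeze_zero_norm
        (a := fun n : ℕ => (dist w y ^ 2 + dist y (v'⁻¹ • y) ^ 2) / (2 * ((n : ℝ) + 1)))
        (fun n => ?_) ?_
      · rw [Real.norm_eq_abs]
        exact h3 _
      · refine Filter.Tendsto.div_atTop tendsto_const_nhds ?_
        refine Filter.Tendsto.const_mul_atTop (by norm_num) ?_
        exact Filter.tendsto_atTop_add_const_right _ _ tendsto_natCast_atTop_atTop
    have h5 := tendsto_nhds_unique h1 h2
    rw [hby] at h5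
    linarith
  -- the value at z
  have hbz : b (z • y) ≤ - (c ^ 2 / 4) := by
    have h1 := hb (z • y)
    refine le_of_tendsto h1 ?_
    filter_upwards [hωS] with n hn
    have hn' : c / 2 ≤ a (n + 1) - a n := hn
    have h2 : g (z • y) n = (a n ^ 2 - a (n + 1) ^ 2) / (2 * (n + 1)) := by
      simp only [g, p]
      rw [hdiff]
    rw [h2, div_le_iff₀ (hn1 n)]
    have h3 : c * ((n + 1 : ℕ) : ℝ) ≤ a (n + 1) := hlin (n + 1)
    push_cast at h3
    have h4 : 0 ≤ a n := dist_nonneg
    have h5 : (c / 2) * (a (n + 1) + a n) ≤ (a (n + 1) - a n) * (a (n + 1) + a n) :=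
      mul_le_mul_of_nonneg_right hn' (by linarith)
    have h6 : (c / 2) * (c * (n + 1)) ≤ (c / 2) * (a (n + 1) + a n) :=
      mul_le_mul_of_nonneg_left (by linarith) (by linarith)
    nlinarith
  -- the function on the group
  refine ⟨fun u => b (u⁻¹ • y), ?_, ?_, ?_⟩
  · intro x
    refine ⟨dist (x⁻¹ • y) y * a 1, fun u => ?_⟩
    have h1 := hbLip ((x * u)⁻¹ • y) (u⁻¹ • y)
    have h2 : dist ((x * u)⁻¹ • y) (u⁻¹ • y) = dist (x⁻¹ • y) y := by
      rw [mul_inv_rev, mul_smul, dist_smul]
    rwa [h2] at h1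
  · intro u v hv
    have hv' : Commute v⁻¹ z := hv.inv_left
    have h1 := hbequiv (v⁻¹ • y) (u⁻¹ • y) v⁻¹ hv' rfl
    have h2 : (u * v)⁻¹ • y = v⁻¹ • u⁻¹ • y := by
      rw [mul_inv_rev, mul_smul]
    simp only [h2, inv_one, one_smul, hby]
    linarith
  · intro h
    simp only [inv_one, one_smul, hby] at h
    have h1 := hbequiv (z⁻¹ • y) (z • y) z⁻¹ (Commute.refl z).inv_left rfl
    rw [inv_smul_smul, hby, h] at h1
    have hc2 : 0 < c ^ 2 / 4 := by positivity
    linarith

/-- Vanishing of the class trace for isometries of linear growth of a space with the quadrilateral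
inequality. -/
theorem round_trace_zero
    (hround : ∀ a b c d : X,
      dist a c ^ 2 + dist b d ^ 2 ≤ dist a b ^ 2 + dist b c ^ 2 + dist c d ^ 2 + dist d a ^ 2)
    (z : G) (y : X) (c : ℝ) (hc : 0 < c) (hlin : ∀ n : ℕ, c * n ≤ dist y ((z ^ n) • y))
    {q : ℕ} (e : G → Matrix (Fin q) (Fin q) ℂ)
    (he_sum : ∀ i j, Summable fun g => ‖e g i j‖)
    (he_idem : ∀ g i j, ∑' h, ∑ k, e h i k * e (h⁻¹ * g) k j = e g i j) :
    ∑' x : {x : G // IsConj z x}, ∑ i, e x.1 i i = 0 := by
  obtain ⟨f, h1, h2, h3⟩ := exists_f_of_round hround z y c hc hlin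
  exact matrix_main z f h1 h2 h3 e he_sum he_idem

end Roundness

end Vale.Agent.Lib.P184
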