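import Vale.Agent.Lib.P184.Kernel

namespace Vale.Agent.Lib.P184

open scoped BigOperators Topology

set_option linter.unusedSectionVars false

section Trace

variable {G : Type*} [Group G] {M : Type*} [NormedRing M] [CompleteSpace M] [NormedAlgebra ℂ M]

/-- A conjugator taking `z` to `x`, when there is one. -/
noncomputable def rep (z x : G) : G :=
  open Classical in if h : ∃ c, c * z * c⁻¹ = x then h.choose else 1

theorem rep_spec {z x : G} (hx : IsConj z x) : rep z x * z * (rep z x)⁻¹ = x := by
  have h := isConj_iff.mp hx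
  classical
  unfold rep
  rw [dif_pos h]
  exact h.choose_spec

/-- Two conjugators taking `z` to the same element differ by the centraliser. -/
theorem eq_of_conj {z : G} {F : G → G → M}
    (h : ∀ x u v, v ∈ Subgroup.centralizer {z} → F x (u * v) = F x u)
    {c c' : G} (hc : c * z * c⁻¹ = c' * z * c'⁻¹) (w : G) : F w c = F w c' := by
  have hv : c⁻¹ * c' ∈ Subgroup.centralizer {z} := by
    rw [Subgroup.mem_centralizer_singleton_iff]
    calc c⁻¹ * c' * z = c⁻¹ * (c' * z * c'⁻¹) * c' := by group
      _ = c⁻¹ * (c * z * c⁻¹) * c' := by rw [hc]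
      _ = z * (c⁻¹ * c') := by group
  have := h w c (c⁻¹ * c') hv
  rw [mul_inv_cancel_left] at this
  exact this.symm

variable (tr : M →L[ℂ] ℂ) (z : G)

/-- The class trace of a kernel. -/
noncomputable def classT (F : G → G → M) : ℂ :=
  ∑' x, {x : G | IsConj z x}.indicator (fun x => tr (F x (rep z x))) x

theorem norm_indicator_le {F : G → G → M} {A : G → ℝ} (hF : Env F A) (x : G) :
    ‖{x : G | IsConj z x}.indicator (fun x => tr (F x (rep z x))) x‖ ≤ ‖tr‖ * A x := by
  by_cases hx : x ∈ {x : G | IsConj z x}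
  · rw [Set.indicator_of_mem hx]
    exact (tr.le_opNorm _).trans (mul_le_mul_of_nonneg_left (hF.2 _ _) (norm_nonneg _))
  · rw [Set.indicator_of_notMem hx, norm_zero]
    exact mul_nonneg (norm_nonneg _) (hF.nonneg _)

theorem summable_classT {F : G → G → M} {A : G → ℝ} (hF : Env F A) :
    Summable (fun x => {x : G | IsConj z x}.indicator (fun x => tr (F x (rep z x))) x) :=
  Summable.of_norm_bounded (hF.1.mul_left _) (norm_indicator_le tr z hF)

theorem norm_classT_le {F : G → G → M} {A : G → ℝ} (hF : Env F A) :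
    ‖classT tr z F‖ ≤ ‖tr‖ * ∑' x, A x := by
  have h := tsum_of_norm_bounded (hF.1.mul_left ‖tr‖).hasSum (norm_indicator_le tr z hF)
  rwa [tsum_mul_left] at h

theorem classT_add {F F' : G → G → M} {A B : G → ℝ} (hF : Env F A) (hF' : Env F' B) :
    classT tr z (F + F') = classT tr z F + classT tr z F' := by
  unfold classT
  rw [← (summable_classT tr z hF).tsum_add (summable_classT tr z hF')]
  refine tsum_congr fun x => ?_
  by_cases hx : x ∈ {x : G | IsConj z x}
  · simp only [Set.indicator_of_mem hx, Pi.add_apply, map_add]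
  · simp only [Set.indicator_of_notMem hx, add_zero]

theorem classT_zero : classT tr z (0 : G → G → M) = 0 := by
  unfold classT
  refine (tsum_congr fun x => ?_).trans tsum_zero
  by_cases hx : x ∈ {x : G | IsConj z x}
  · simp only [Set.indicator_of_mem hx, Pi.zero_apply, map_zero]
  · simp only [Set.indicator_of_notMem hx]

/-- The symmetric form of the summand of the class trace of a product. -/
noncomputable def Psi (F F' : G → G → M) (a b : G) : ℂ :=
  open Classical in
  if IsConj z (a * b) then tr (F a (b * rep z (a * b)) * F' b (rep z (a * b))) else 0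

theorem classT_mulK {F F' : G → G → M} {A B : G → ℝ} (hF : Env F A) (hF' : Env F' B) :
    classT tr z (mulK F F') = ∑' p : G × G, Psi tr z F F' p.1 p.2 := by
  classical
  -- the summand on pairs `(x, y)`
  set Φ : G × G → ℂ := fun p => if IsConj z p.1 then
    tr (F (p.1 * p.2⁻¹) (p.2 * rep z p.1) * F' p.2 (rep z p.1)) else 0 with hΦ
  have hstep1 : ∀ x, {x : G | IsConj z x}.indicator (fun x => tr (mulK F F' x (rep z x))) x
      = ∑' y, Φ (x, y) := by
    intro x
    by_cases hx : IsConj z x
    · have hx' : x ∈ {x : G | IsConj z x} := hx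
      rw [Set.indicator_of_mem hx']
      simp only [hΦ, if_pos hx]
      exact tr.map_tsum (summable_term hF hF' x _)
    · have hx' : x ∉ {x : G | IsConj z x} := hx
      rw [Set.indicator_of_notMem hx']
      simp only [hΦ, if_neg hx, tsum_zero]
  have hbound : ∀ p : G × G, ‖Φ p‖ ≤ ‖tr‖ * (A (p.1 * p.2⁻¹) * B p.2) := by
    rintro ⟨x, y⟩
    by_cases hx : IsConj z x
    · simp only [hΦ, if_pos hx]
      exact (tr.le_opNorm _).trans
        (mul_le_mul_of_nonneg_left (term_bound hF hF' x _ y) (norm_nonneg _))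
    · simp only [hΦ, if_neg hx, norm_zero]
      exact mul_nonneg (norm_nonneg _) (mul_nonneg (hF.nonneg _) (hF'.nonneg _))
  have hsum : Summable Φ :=
    Summable.of_norm_bounded ((summable_pair hF.1 hF'.1 hF.nonneg hF'.nonneg).mul_left _) hbound
  unfold classT
  rw [tsum_congr hstep1, ← hsum.tsum_prod]
  rw [← (shear (G := G)).symm.tsum_eq Φ]
  refine tsum_congr ?_
  rintro ⟨a, b⟩
  simp [hΦ, Psi, shear]

theorem Psi_symm {F F' : G → G → M}
    (hinv : ∀ x u v, v ∈ Subgroup.centralizer {z} → F x (u * v) = F x u)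
    (hinv' : ∀ x u v, v ∈ Subgroup.centralizer {z} → F' x (u * v) = F' x u)
    (htr : ∀ a b, tr (a * b) = tr (b * a)) (a b : G) :
    Psi tr z F F' a b = Psi tr z F' F b a := by
  classical
  have hiff : IsConj z (a * b) ↔ IsConj z (b * a) := by
    have h : IsConj (a * b) (b * a) := isConj_iff.mpr ⟨b, by group⟩
    exact ⟨fun h1 => h1.trans h, fun h1 => h1.trans h.symm⟩
  unfold Psi
  by_cases hc : IsConj z (a * b)
  · rw [if_pos hc, if_pos (hiff.mp hc), htr]
    have hr := rep_spec hc
    have hr' := rep_spec (hiff.mp hc)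
    have e1 : F' b (rep z (a * b)) = F' b (a * rep z (b * a)) := by
      apply eq_of_conj hinv'
      rw [hr]
      calc a * b = a * (rep z (b * a) * z * (rep z (b * a))⁻¹) * a⁻¹ := by rw [hr']; group
        _ = _ := by group
    have e2 : F a (b * rep z (a * b)) = F a (rep z (b * a)) := by
      apply eq_of_conj hinv
      rw [hr']
      calc b * rep z (a * b) * z * (b * rep z (a * b))⁻¹
          = b * (rep z (a * b) * z * (rep z (a * b))⁻¹) * b⁻¹ := by group
        _ = b * a := by rw [hr]; group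
    rw [e1, e2]
  · rw [if_neg hc, if_neg (fun h => hc (hiff.mpr h))]

theorem classT_comm {F F' : G → G → M} {A B : G → ℝ} (hF : Env F A) (hF' : Env F' B)
    (hinv : ∀ x u v, v ∈ Subgroup.centralizer {z} → F x (u * v) = F x u)
    (hinv' : ∀ x u v, v ∈ Subgroup.centralizer {z} → F' x (u * v) = F' x u)
    (htr : ∀ a b, tr (a * b) = tr (b * a)) :
    classT tr z (mulK F F') = classT tr z (mulK F' F) := by
  rw [classT_mulK tr z hF hF', classT_mulK tr z hF' hF,
    ← (Equiv.prodComm G G).tsum_eq (fun p : G × G => Psi tr z F' F p.1 p.2)]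
  refine tsum_congr ?_
  rintro ⟨a, b⟩
  exact Psi_symm tr z hinv hinv' htr a b

/-- The class trace as an additive map on the ring of kernels. -/
noncomputable def classTHom : KSet (Subgroup.centralizer {z}) M →+ ℂ where
  toFun F := classT tr z F.1
  map_zero' := classT_zero tr z
  map_add' F F' := by
    obtain ⟨⟨A, hA⟩, _⟩ := F.2
    obtain ⟨⟨B, hB⟩, _⟩ := F'.2
    exact classT_add tr z hA hB

theorem classTHom_comm (htr : ∀ a b, tr (a * b) = tr (b * a))
    (F F' : KSet (Subgroup.centralizer {z}) M) :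
    classTHom tr z (F * F') = classTHom tr z (F' * F) := by
  obtain ⟨⟨A, hA⟩, hinv⟩ := F.2
  obtain ⟨⟨B, hB⟩, hinv'⟩ := F'.2
  exact classT_comm tr z hA hB hinv hinv' htr

/-- Idempotents at distance less than one in the weighted norm have the same class trace. -/
theorem classT_eq_of_small (htr : ∀ a b, tr (a * b) = tr (b * a))
    {a b : KSet (Subgroup.centralizer {z}) M} (ha : a * a = a) (hb : b * b = b) {ε : ℝ}
    (hε : ε < 1) (h : SmallBy (a - b).1 ε) : classT tr z a.1 = classT tr z b.1 := by
  have h0 : 0 ≤ ε := h.nonneg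
  have key : ∀ n : ℕ, ‖classTHom tr z (a - b)‖ ≤ ‖tr‖ * ε ^ (2 * n + 1) := by
    intro n
    rw [← index_identity (classTHom tr z) (classTHom_comm tr z htr) ha hb n]
    obtain ⟨A, hA, hAε⟩ := h.odd_pow n
    exact (norm_classT_le tr z hA).trans (mul_le_mul_of_nonneg_left hAε (norm_nonneg _))
  have hlim : Filter.Tendsto (fun n : ℕ => ‖tr‖ * ε ^ (2 * n + 1)) Filter.atTop (𝓝 0) := by
    have h1 := tendsto_pow_atTop_nhds_zero_of_lt_one h0 hε
    have h2 : Filter.Tendsto (fun n : ℕ => 2 * n + 1) Filter.atTop Filter.atTop :=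
      Filter.tendsto_atTop_mono (fun n => by simp only [id]; omega) Filter.tendsto_id
    simpa using (h1.comp h2).const_mul ‖tr‖
  have h3 : ‖classTHom tr z (a - b)‖ ≤ 0 := ge_of_tendsto' hlim key
  have h4 : classTHom tr z (a - b) = 0 := norm_le_zero_iff.mp h3
  rw [map_sub, sub_eq_zero] at h4
  exact h4

end Trace

section Deformation

variable {G : Type*} [Group G] {M : Type*} [NormedRing M] [CompleteSpace M] [NormedAlgebra ℂ M]

/-- The phase of the deformation. -/
noncomputable def phase (f : G → ℝ) (t : ℝ) (x u : G) : ℂ :=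
  Complex.exp (((t * (f u - f (x * u)) : ℝ) : ℂ) * Complex.I)

theorem norm_phase (f : G → ℝ) (t : ℝ) (x u : G) : ‖phase f t x u‖ = 1 :=
  Complex.norm_exp_ofReal_mul_I _

theorem phase_zero (f : G → ℝ) (x u : G) : phase f 0 x u = 1 := by
  simp [phase]

theorem phase_mul (f : G → ℝ) (t : ℝ) (x y u : G) :
    phase f t (x * y⁻¹) (y * u) * phase f t y u = phase f t x u := by
  unfold phase
  rw [← Complex.exp_add]
  congr 1
  have : x * y⁻¹ * (y * u) = x * u := by group
  rw [this]
  push_cast
  ring

/-- The deformed kernel. -/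
noncomputable def EK (e : G → M) (f : G → ℝ) (t : ℝ) : G → G → M :=
  fun x u => phase f t x u • e x

theorem env_EK {e : G → M} (hsum : Summable fun x => ‖e x‖) (f : G → ℝ) (t : ℝ) :
    Env (EK e f t) (fun x => ‖e x‖) :=
  ⟨hsum, fun x u => by simp [EK, norm_smul, norm_phase]⟩

theorem EK_inv {z : G} {e : G → M} {f : G → ℝ}
    (hequiv : ∀ u v, v ∈ Subgroup.centralizer {z} → f (u * v) - f u = f v - f 1) (t : ℝ)
    (x u v : G) (hv : v ∈ Subgroup.centralizer {z}) : EK e f t x (u * v) = EK e f t x u := by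
  unfold EK phase
  have h1 := hequiv u v hv
  have h2 := hequiv (x * u) v hv
  rw [mul_assoc] at h2
  have : f (u * v) - f (x * (u * v)) = f u - f (x * u) := by linarith
  rw [this]

theorem EK_idem {e : G → M} (hsum : Summable fun x => ‖e x‖)
    (hidem : ∀ x, ∑' y, e (x * y⁻¹) * e y = e x) (f : G → ℝ) (t : ℝ) :
    mulK (EK e f t) (EK e f t) = EK e f t := by
  funext x u
  unfold mulK EK
  have h : ∀ y, (phase f t (x * y⁻¹) (y * u) • e (x * y⁻¹)) * (phase f t y u • e y)
      = phase f t x u • (e (x * y⁻¹) * e y) := by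
    intro y
    rw [smul_mul_smul_comm, phase_mul]
  simp only [h]
  have hs : Summable (fun y => e (x * y⁻¹) * e y) := by
    have := summable_term (env_EK hsum f 0) (env_EK hsum f 0) x u
    simpa [EK, phase_zero] using this
  rw [hs.tsum_const_smul, hidem]

/-- The class trace of the deformation. -/
theorem classT_EK {z : G} {e : G → M} {f : G → ℝ}
    (hequiv : ∀ u v, v ∈ Subgroup.centralizer {z} → f (u * v) - f u = f v - f 1)
    (tr : M →L[ℂ] ℂ) (t : ℝ) :
    classT tr z (EK e f t) = Complex.exp (((t * (f 1 - f z) : ℝ) : ℂ) * Complex.I)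
      * ∑' x, {x : G | IsConj z x}.indicator (fun x => tr (e x)) x := by
  unfold classT
  rw [← tsum_mul_left]
  refine tsum_congr fun x => ?_
  by_cases hx : x ∈ {x : G | IsConj z x}
  · rw [Set.indicator_of_mem hx, Set.indicator_of_mem hx]
    have hr := rep_spec (z := z) (x := x) hx
    have hxr : x * rep z x = rep z x * z := by
      calc x * rep z x = (rep z x * z * (rep z x)⁻¹) * rep z x := by rw [hr]
        _ = rep z x * z := by group
    have hzz : z ∈ Subgroup.centralizer {z} :=
      Subgroup.mem_centralizer_singleton_iff.mpr rfl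
    have h1 := hequiv (rep z x) z hzz
    unfold EK phase
    rw [map_smul, hxr, smul_eq_mul]
    congr 3
    push_cast
    have h2 : f (rep z x * z) = f (rep z x) + f z - f 1 := by linarith
    rw [h2]
    push_cast
    ring
  · rw [Set.indicator_of_notMem hx, Set.indicator_of_notMem hx, mul_zero]

/-- A real number that is a small nonzero multiple: the phase is not one. -/
theorem exp_ne_one_of_small {a : ℝ} (h0 : a ≠ 0) (h1 : |a| < 2 * Real.pi) :
    Complex.exp (((a : ℝ) : ℂ) * Complex.I) ≠ 1 := by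
  intro h
  rw [Complex.exp_eq_one_iff] at h
  obtain ⟨n, hn⟩ := h
  have h2 : (a : ℂ) = (n : ℂ) * (2 * Real.pi) := by
    have hI : Complex.I ≠ 0 := Complex.I_ne_zero
    apply mul_right_cancel₀ hI
    rw [hn]
    ring
  have h3 : a = (n : ℝ) * (2 * Real.pi) := by exact_mod_cast h2
  have hn0 : n ≠ 0 := by
    rintro rfl
    apply h0
    simpa using h3
  have h4 : (1 : ℝ) ≤ |(n : ℝ)| := by exact_mod_cast Int.one_le_abs hn0
  have hpi := Real.pi_pos
  rw [h3, abs_mul, abs_of_pos (by positivity : (0 : ℝ) < 2 * Real.pi)] at h1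
  nlinarith

/-- The main theorem with coefficients in a Banach algebra with a bounded trace. -/
theorem main_tsum_eq_zero {z : G} {e : G → M} {f : G → ℝ}
    (hsum : Summable fun x => ‖e x‖)
    (hidem : ∀ x, ∑' y, e (x * y⁻¹) * e y = e x)
    (hbdd : ∀ x : G, ∃ C : ℝ, ∀ u : G, |f (x * u) - f u| ≤ C)
    (hequiv : ∀ u v, v ∈ Subgroup.centralizer {z} → f (u * v) - f u = f v - f 1)
    (hz : f z ≠ f 1)
    (tr : M →L[ℂ] ℂ) (htr : ∀ a b, tr (a * b) = tr (b * a)) :
    ∑' x, {x : G | IsConj z x}.indicator (fun x => tr (e x)) x = 0 := by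
  choose C hC using hbdd
  -- the kernels
  let K : ℝ → KSet (Subgroup.centralizer {z}) M := fun t =>
    ⟨EK e f t, ⟨_, env_EK hsum f t⟩, fun x u v hv => EK_inv hequiv t x u v hv⟩
  have hK : ∀ t, K t * K t = K t := fun t => Subtype.ext (EK_idem hsum hidem f t)
  -- the envelope of the difference
  let g : ℝ → G → ℝ := fun t x => ‖e x‖ * min 2 (|t| * C x)
  have hg0 : ∀ t x, 0 ≤ g t x := by
    intro t x
    refine mul_nonneg (norm_nonneg _) (le_min (by norm_num) (mul_nonneg (abs_nonneg _) ?_))
    exact (abs_nonneg _).trans (hC x 1)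
  have hgle : ∀ t x, g t x ≤ 2 * ‖e x‖ := by
    intro t x
    have := min_le_left (2 : ℝ) (|t| * C x)
    have h := mul_le_mul_of_nonneg_left this (norm_nonneg (e x))
    simpa [g, mul_comm] using h
  have hsum2 : Summable fun x => 2 * ‖e x‖ := hsum.mul_left 2
  have hgs : ∀ t, Summable (g t) := fun t =>
    Summable.of_nonneg_of_le (hg0 t) (hgle t) hsum2
  have hlim : Filter.Tendsto (fun t => ∑' x, g t x) (𝓝 0) (𝓝 0) := by
    have h0 : ∑' _ : G, (0 : ℝ) = 0 := tsum_zero
    rw [← h0]
    refine tendsto_tsum_of_dominated_convergence hsum2 ?_ ?_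
    · intro x
      have hc : Continuous fun t : ℝ => ‖e x‖ * min 2 (|t| * C x) := by fun_prop
      have := hc.tendsto 0
      simpa using this
    · refine Filter.Eventually.of_forall fun t x => ?_
      rw [Real.norm_of_nonneg (hg0 t x)]
      exact hgle t x
  have hev : ∀ᶠ t in 𝓝 (0 : ℝ), ∑' x, g t x < 1 :=
    hlim.eventually (gt_mem_nhds (by norm_num))
  obtain ⟨δ, hδ, hball⟩ := Metric.eventually_nhds_iff.mp hev
  -- choose the parameter
  set χ := f 1 - f z with hχ
  have hχ0 : χ ≠ 0 := fun h => hz (by linarith [sub_eq_zero.mp h])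
  have hχpos : 0 < |χ| := abs_pos.mpr hχ0
  set t : ℝ := min (δ / 2) (Real.pi / |χ|) with ht
  have ht0 : 0 < t := lt_min (by linarith) (div_pos Real.pi_pos hχpos)
  have htδ : |t| < δ := by
    rw [abs_of_pos ht0]
    exact lt_of_le_of_lt (min_le_left _ _) (by linarith)
  have htχ : |t * χ| < 2 * Real.pi := by
    rw [abs_mul, abs_of_pos ht0]
    have h1 : t * |χ| ≤ Real.pi / |χ| * |χ| :=
      mul_le_mul_of_nonneg_right (min_le_right _ _) hχpos.le
    rw [div_mul_cancel₀ _ hχpos.ne'] at h1
    linarith [Real.pi_pos]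
  have htχ0 : t * χ ≠ 0 := mul_ne_zero ht0.ne' hχ0
  have hphase := exp_ne_one_of_small htχ0 htχ
  -- the difference is small
  have hsmall : SmallBy (K t - K 0).1 (∑' x, g t x) := by
    refine ⟨g t, ⟨hgs t, fun x u => ?_⟩, le_rfl⟩
    show ‖(phase f t x u • e x) - (phase f 0 x u • e x)‖ ≤ g t x
    rw [← sub_smul, phase_zero, norm_smul, mul_comm]
    refine mul_le_mul_of_nonneg_left ?_ (norm_nonneg _)
    refine le_min ?_ ?_
    · calc ‖phase f t x u - 1‖ ≤ ‖phase f t x u‖ + ‖(1 : ℂ)‖ := norm_sub_le _ _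
        _ = 2 := by rw [norm_phase]; norm_num
    · have h1 : ‖phase f t x u - 1‖ ≤ ‖t * (f u - f (x * u))‖ := by
        unfold phase
        rw [mul_comm]
        exact Real.norm_exp_I_mul_ofReal_sub_one_le
      refine h1.trans ?_
      rw [Real.norm_eq_abs, abs_mul]
      refine mul_le_mul_of_nonneg_left ?_ (abs_nonneg _)
      rw [abs_sub_comm]
      exact hC x u
  have hlt : ∑' x, g t x < 1 := by
    apply hball
    simpa [Real.dist_eq] using htδ
  have hmain := classT_eq_of_small tr z htr (hK t) (hK 0) hlt hsmall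
  have h1 := classT_EK (e := e) hequiv tr t
  have h2 := classT_EK (e := e) hequiv tr 0
  have hK1 : classT tr z (K t).1 = classT tr z (EK e f t) := rfl
  have hK2 : classT tr z (K 0).1 = classT tr z (EK e f 0) := rfl
  rw [hK1, hK2, h1, h2] at hmain
  simp only [zero_mul, Complex.ofReal_zero, Complex.exp_zero, one_mul] at hmain
  by_contra hne
  refine hphase (mul_right_cancel₀ hne ?_)
  rw [one_mul]
  exact hmain

end Deformation

end Vale.Agent.Lib.P184
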